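import Mathlib

/-!
Row 299 / S0453, lemma (T) (three active vertices), abstract form: the **3-box system**
(helper69's proof, board post 929).  Balls `K` with charges `ε k ∈ {1, -1}`, three boxes `Fin 3`,
prescribed net charge `ρ i` of box `i`; uniform measure on the states.  `condE i` is the
conditional expectation given the content of box `i`.

Main theorem (file `ThreeBox.lean`):  `A := ∑ i, (I - condE i)` satisfies `⟨f, A f⟩ ≤ ⟨A f, A f⟩`.
-/

set_option autoImplicit false
open Finset

namespace Crest.Agent.S0453T

variable {K : Type} [Fintype K] [DecidableEq K]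

/-- states of the 3-box system: positions of the balls with prescribed net charge in each box -/
def states (ε : K → ℤ) (ρ : Fin 3 → ℤ) : Finset (K → Fin 3) :=
  univ.filter fun pos => ∀ i, ∑ k, (if pos k = i then ε k else 0) = ρ i

/-- the content of box `i` -/
def box (pos : K → Fin 3) (i : Fin 3) : Finset K := univ.filter fun k => pos k = i

/-- the states with the same content of box `i` as `pos` -/
def cls (ε : K → ℤ) (ρ : Fin 3 → ℤ) (i : Fin 3) (pos : K → Fin 3) : Finset (K → Fin 3) :=
  (states ε ρ).filter fun pos' => box pos' i = box pos i

/-- conditional expectation given the content of box `i` (uniform measure on the states) -/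
noncomputable def condE (ε : K → ℤ) (ρ : Fin 3 → ℤ) (i : Fin 3) (f : (K → Fin 3) → ℝ)
    (pos : K → Fin 3) : ℝ :=
  (∑ pos' ∈ cls ε ρ i pos, f pos') / ((cls ε ρ i pos).card : ℝ)

/-- number of `+` balls in box `i` -/
def ucount (ε : K → ℤ) (pos : K → Fin 3) (i : Fin 3) : ℕ :=
  (univ.filter fun k => pos k = i ∧ ε k = 1).card

end Crest.Agent.S0453T
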