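import Mathlib

/-!
Row 299 / S0453, lemma (T), abstract 3-box form (helper48's interface): three standalone
auxiliary lemmas (helper36).

* `choose_mlr`  : monotone likelihood ratio of binomial coefficients;
* `cheb_mlr`    : Chebyshev-type inequality for two weights in MLR order;
* `le_sq_of_eigen` : a real symmetric matrix all of whose eigenvalues are `≤ 0` or `≥ 1`
  satisfies `⟨f, A f⟩ ≤ ⟨A f, A f⟩`.
-/

set_option autoImplicit false
open Finset Matrix

namespace Crest.Agent.S0453T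

theorem choose_mlr (M k s t : ℕ) (hst : s ≤ t) :
    (M - k).choose t * M.choose s ≤ (M - k).choose s * M.choose t := by
  have h1 : (M - k).choose t * t.choose s = (M - k).choose s * (M - k - s).choose (t - s) :=
    Nat.choose_mul hst
  have h2 : M.choose t * t.choose s = M.choose s * (M - s).choose (t - s) := Nat.choose_mul hst
  have hpos : 0 < t.choose s := Nat.choose_pos hst
  have hmono : (M - k - s).choose (t - s) ≤ (M - s).choose (t - s) :=
    Nat.choose_le_choose _ (Nat.sub_le_sub_right (Nat.sub_le M k) s)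
  apply Nat.le_of_mul_le_mul_right _ hpos
  calc (M - k).choose t * M.choose s * t.choose s
      = ((M - k).choose t * t.choose s) * M.choose s := by ring
    _ = ((M - k).choose s * (M - k - s).choose (t - s)) * M.choose s := by rw [h1]
    _ ≤ ((M - k).choose s * (M - s).choose (t - s)) * M.choose s := by
        apply Nat.mul_le_mul_right
        exact Nat.mul_le_mul_left _ hmono
    _ = (M - k).choose s * (M.choose s * (M - s).choose (t - s)) := by ring
    _ = (M - k).choose s * (M.choose t * t.choose s) := by rw [h2]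
    _ = (M - k).choose s * M.choose t * t.choose s := by ring

theorem cheb_mlr (N : ℕ) (μ ν φ : ℕ → ℝ) (_hμ : ∀ t, 0 ≤ μ t) (_hν : ∀ t, 0 ≤ ν t)
    (hmlr : ∀ s t, s ≤ t → μ t * ν s ≤ μ s * ν t)
    (hφ : ∀ s t, s ≤ t → (μ s ≠ 0 ∨ ν s ≠ 0) → (μ t ≠ 0 ∨ ν t ≠ 0) → φ s ≤ φ t) :
    (∑ t ∈ range N, μ t * φ t) * (∑ t ∈ range N, ν t)
      ≤ (∑ t ∈ range N, ν t * φ t) * (∑ t ∈ range N, μ t) := by
  have key : 0 ≤ ∑ s ∈ range N, ∑ t ∈ range N, (φ t - φ s) * (ν t * μ s - μ t * ν s) := by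
    refine sum_nonneg fun s _ => sum_nonneg fun t _ => ?_
    rcases le_total s t with hst | hts
    · by_cases h1 : μ s ≠ 0 ∨ ν s ≠ 0
      · by_cases h2 : μ t ≠ 0 ∨ ν t ≠ 0
        · have := hφ s t hst h1 h2
          have := hmlr s t hst
          nlinarith
        · simp only [not_or, not_not] at h2
          rw [h2.1, h2.2]; simp
      · simp only [not_or, not_not] at h1
        rw [h1.1, h1.2]; simp
    · by_cases h1 : μ s ≠ 0 ∨ ν s ≠ 0
      · by_cases h2 : μ t ≠ 0 ∨ ν t ≠ 0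
        · have := hφ t s hts h2 h1
          have := hmlr t s hts
          nlinarith
        · simp only [not_or, not_not] at h2
          rw [h2.1, h2.2]; simp
      · simp only [not_or, not_not] at h1
        rw [h1.1, h1.2]; simp
  have expand : ∑ s ∈ range N, ∑ t ∈ range N, (φ t - φ s) * (ν t * μ s - μ t * ν s)
      = 2 * ((∑ t ∈ range N, ν t * φ t) * (∑ t ∈ range N, μ t)
          - (∑ t ∈ range N, μ t * φ t) * (∑ t ∈ range N, ν t)) := by
    have e1 : ∑ s ∈ range N, ∑ t ∈ range N, (φ t - φ s) * (ν t * μ s - μ t * ν s)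
        = ∑ s ∈ range N, ∑ t ∈ range N,
            ((ν t * φ t) * μ s - (μ t * φ t) * ν s - ν t * (μ s * φ s) + μ t * (ν s * φ s)) := by
      refine sum_congr rfl fun s _ => sum_congr rfl fun t _ => ?_
      ring
    rw [e1]
    simp only [sum_add_distrib, sum_sub_distrib]
    have a1 : ∑ s ∈ range N, ∑ t ∈ range N, (ν t * φ t) * μ s
        = (∑ t ∈ range N, ν t * φ t) * (∑ t ∈ range N, μ t) := by
      rw [sum_mul_sum, sum_comm]
    have a2 : ∑ s ∈ range N, ∑ t ∈ range N, (μ t * φ t) * ν s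
        = (∑ t ∈ range N, μ t * φ t) * (∑ t ∈ range N, ν t) := by
      rw [sum_mul_sum, sum_comm]
    have a3 : ∑ s ∈ range N, ∑ t ∈ range N, ν t * (μ s * φ s)
        = (∑ t ∈ range N, μ t * φ t) * (∑ t ∈ range N, ν t) := by
      rw [sum_mul_sum]
      refine sum_congr rfl fun s _ => sum_congr rfl fun t _ => ?_
      ring
    have a4 : ∑ s ∈ range N, ∑ t ∈ range N, μ t * (ν s * φ s)
        = (∑ t ∈ range N, ν t * φ t) * (∑ t ∈ range N, μ t) := by
      rw [sum_mul_sum]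
      refine sum_congr rfl fun s _ => sum_congr rfl fun t _ => ?_
      ring
    rw [a1, a2, a3, a4]
    ring
  rw [expand] at key
  linarith

theorem le_sq_of_eigen {ι : Type} [Fintype ι] [DecidableEq ι] (A : Matrix ι ι ℝ)
    (hA : A.IsHermitian)
    (h : ∀ (α : ℝ) (v : ι → ℝ), v ≠ 0 → A *ᵥ v = α • v → α ≤ 0 ∨ 1 ≤ α) (f : ι → ℝ) :
    f ⬝ᵥ (A *ᵥ f) ≤ (A *ᵥ f) ⬝ᵥ (A *ᵥ f) := by
  classical
  set b := hA.eigenvectorBasis with hb
  set lam := hA.eigenvalues with hlam
  have parseval : ∀ x y : ι → ℝ,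
      x ⬝ᵥ y = ∑ i, (x ⬝ᵥ (b i).ofLp) * ((b i).ofLp ⬝ᵥ y) := by
    intro x y
    have h0 := b.sum_inner_mul_inner (WithLp.toLp 2 x) (WithLp.toLp 2 y)
    have e1 : inner ℝ (WithLp.toLp 2 x) (WithLp.toLp 2 y) = x ⬝ᵥ y := by
      rw [EuclideanSpace.inner_toLp_toLp]; simp [dotProduct_comm]
    have e2 : ∀ i, inner ℝ (WithLp.toLp 2 x) (b i) = x ⬝ᵥ (b i).ofLp := by
      intro i
      rw [EuclideanSpace.inner_eq_star_dotProduct]; simp [dotProduct_comm]
    have e3 : ∀ i, inner ℝ (b i) (WithLp.toLp 2 y) = (b i).ofLp ⬝ᵥ y := by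
      intro i
      rw [EuclideanSpace.inner_eq_star_dotProduct]; simp [dotProduct_comm]
    rw [← e1, ← h0]
    exact Finset.sum_congr rfl fun i _ => by rw [e2, e3]
  have hsymm : ∀ x y : ι → ℝ, x ⬝ᵥ (A *ᵥ y) = (A *ᵥ x) ⬝ᵥ y := by
    intro x y
    rw [Matrix.dotProduct_mulVec]
    congr 1
    have hT : Aᵀ = A := by
      have := hA.eq
      rwa [Matrix.conjTranspose_eq_transpose_of_trivial] at this
    rw [← Matrix.mulVec_transpose, hT]
  have eig : ∀ i, A *ᵥ (b i).ofLp = lam i • (b i).ofLp := fun i =>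
    hA.mulVec_eigenvectorBasis i
  have c1 : ∀ i (x : ι → ℝ), (b i).ofLp ⬝ᵥ (A *ᵥ x) = lam i * ((b i).ofLp ⬝ᵥ x) := by
    intro i x
    rw [hsymm, eig, smul_dotProduct, smul_eq_mul]
  have hne : ∀ i, (b i).ofLp ≠ 0 := by
    intro i h0
    have h1 : ‖b i‖ = 1 := b.orthonormal.1 i
    have h2 : b i = 0 := by
      ext j
      have := congrFun h0 j
      simpa using this
    rw [h2, norm_zero] at h1
    exact zero_ne_one h1
  have hl : ∀ i, lam i ≤ 0 ∨ 1 ≤ lam i := fun i => h (lam i) (b i).ofLp (hne i) (eig i)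
  rw [parseval f (A *ᵥ f), parseval (A *ᵥ f) (A *ᵥ f)]
  refine Finset.sum_le_sum fun i _ => ?_
  rw [c1 i f, dotProduct_comm (A *ᵥ f) (b i).ofLp, c1 i f, dotProduct_comm f (b i).ofLp]
  rcases hl i with h1 | h1
  · nlinarith [sq_nonneg ((b i).ofLp ⬝ᵥ f), mul_nonneg (neg_nonneg.mpr h1) (neg_nonneg.mpr h1)]
  · nlinarith [sq_nonneg ((b i).ofLp ⬝ᵥ f)]

end Crest.Agent.S0453T
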