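import Crest.Agent.S0453T.Basic
import Crest.Agent.S0453T.Aux36

/-!
Row 299 / S0453, lemma (T), 3-box system: the spectral reduction.  If every eigenfunction of
`∑ i, condE i` with eigenvalue `> 2` has eigenvalue `3`, then `A := ∑ i, (I - condE i)` satisfies
`⟨f, A f⟩ ≤ ⟨A f, A f⟩`.
-/

set_option autoImplicit false
set_option linter.unusedSectionVars false
open Finset Matrix

namespace Crest.Agent.S0453T

variable {K : Type} [Fintype K] [DecidableEq K]

/-- extension by zero of a function on the states -/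
noncomputable def extS (ε : K → ℤ) (ρ : Fin 3 → ℤ) (v : {p : K → Fin 3 // p ∈ states ε ρ} → ℝ)
    (pos : K → Fin 3) : ℝ :=
  if h : pos ∈ states ε ρ then v ⟨pos, h⟩ else 0

lemma extS_coe (ε : K → ℤ) (ρ : Fin 3 → ℤ) (v : {p : K → Fin 3 // p ∈ states ε ρ} → ℝ)
    (q : {p : K → Fin 3 // p ∈ states ε ρ}) : extS ε ρ v q.1 = v q := by
  unfold extS; rw [dif_pos q.2]

/-- the matrix of `A = ∑ i, (I - condE i)` on the states -/
noncomputable def matA (ε : K → ℤ) (ρ : Fin 3 → ℤ) :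
    Matrix {p : K → Fin 3 // p ∈ states ε ρ} {p : K → Fin 3 // p ∈ states ε ρ} ℝ :=
  fun p q => (if p = q then 3 else 0)
    - ∑ i : Fin 3, if box q.1 i = box p.1 i then ((cls ε ρ i p.1).card : ℝ)⁻¹ else 0

lemma matA_isHermitian (ε : K → ℤ) (ρ : Fin 3 → ℤ) : (matA ε ρ).IsHermitian := by
  refine Matrix.IsHermitian.ext fun p q => ?_
  simp only [matA, star_trivial]
  congr 1
  · by_cases h : p = q
    · subst h; rfl
    · rw [if_neg h, if_neg (fun e => h e.symm)]
  · refine sum_congr rfl fun i _ => ?_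
    by_cases h : box p.1 i = box q.1 i
    · rw [if_pos h, if_pos h.symm, cls_eq_of_box_eq h]
    · rw [if_neg h, if_neg (fun e => h e.symm)]

lemma sum_cls_eq (ε : K → ℤ) (ρ : Fin 3 → ℤ) (i : Fin 3)
    (v : {p : K → Fin 3 // p ∈ states ε ρ} → ℝ) (p : {p : K → Fin 3 // p ∈ states ε ρ}) :
    ∑ x ∈ cls ε ρ i p.1, extS ε ρ v x
      = ∑ q : {p : K → Fin 3 // p ∈ states ε ρ}, if box q.1 i = box p.1 i then v q else 0 := by
  unfold cls
  rw [sum_filter]
  rw [← Finset.sum_coe_sort (states ε ρ)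
    (fun x => if box x i = box p.1 i then extS ε ρ v x else 0)]
  refine sum_congr rfl fun q _ => ?_
  rw [extS_coe]

lemma matA_mulVec (ε : K → ℤ) (ρ : Fin 3 → ℤ) (v : {p : K → Fin 3 // p ∈ states ε ρ} → ℝ)
    (p : {p : K → Fin 3 // p ∈ states ε ρ}) :
    (matA ε ρ *ᵥ v) p = ∑ i : Fin 3, (v p - condE ε ρ i (extS ε ρ v) p.1) := by
  have h1 : (matA ε ρ *ᵥ v) p
      = ∑ q, (if p = q then 3 else 0) * v q
        - ∑ i : Fin 3, ∑ q : {p : K → Fin 3 // p ∈ states ε ρ},
            (if box q.1 i = box p.1 i then ((cls ε ρ i p.1).card : ℝ)⁻¹ else 0) * v q := by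
    simp only [Matrix.mulVec, dotProduct, matA, sub_mul, sum_sub_distrib, sum_mul]
    rw [sum_comm]
  rw [h1]
  have h2 : ∑ q : {p : K → Fin 3 // p ∈ states ε ρ}, (if p = q then (3 : ℝ) else 0) * v q
      = 3 * v p := by
    simp
  rw [h2, sum_sub_distrib]
  simp only [sum_const, card_univ, Fintype.card_fin, nsmul_eq_mul]
  push_cast
  congr 1
  refine sum_congr rfl fun i _ => ?_
  unfold condE
  rw [sum_cls_eq, div_eq_inv_mul, mul_sum]
  refine sum_congr rfl fun q _ => ?_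
  by_cases h : box q.1 i = box p.1 i
  · rw [if_pos h, if_pos h]
  · rw [if_neg h, if_neg h, zero_mul, mul_zero]

/-- **Spectral reduction** for the 3-box system. -/
theorem three_box_of_eigen (ε : K → ℤ) (ρ : Fin 3 → ℤ)
    (hmain : ∀ (lam : ℝ) (e : (K → Fin 3) → ℝ), 2 < lam →
      (∀ p ∈ states ε ρ, ∑ i, condE ε ρ i e p = lam * e p) →
      (∃ p ∈ states ε ρ, e p ≠ 0) → lam = 3)
    (f : (K → Fin 3) → ℝ) :
    ∑ pos ∈ states ε ρ, f pos * ∑ i, (f pos - condE ε ρ i f pos)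
      ≤ ∑ pos ∈ states ε ρ, (∑ i, (f pos - condE ε ρ i f pos)) ^ 2 := by
  classical
  -- the eigenvalue condition for `matA`
  have heig : ∀ (α : ℝ) (v : {p : K → Fin 3 // p ∈ states ε ρ} → ℝ), v ≠ 0 →
      matA ε ρ *ᵥ v = α • v → α ≤ 0 ∨ 1 ≤ α := by
    intro α v hv hAv
    by_contra hcon
    rw [not_or, not_le, not_le] at hcon
    have he : ∀ p ∈ states ε ρ,
        ∑ i, condE ε ρ i (extS ε ρ v) p = (3 - α) * extS ε ρ v p := by
      intro p hp
      have h1 := congrFun hAv ⟨p, hp⟩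
      rw [matA_mulVec, sum_sub_distrib] at h1
      simp only [sum_const, card_univ, Fintype.card_fin, nsmul_eq_mul, Pi.smul_apply,
        smul_eq_mul] at h1
      have h2 : extS ε ρ v p = v ⟨p, hp⟩ := extS_coe ε ρ v ⟨p, hp⟩
      rw [h2]
      push_cast at h1
      linarith
    have hne : ∃ p ∈ states ε ρ, extS ε ρ v p ≠ 0 := by
      obtain ⟨q, hq⟩ := Function.ne_iff.1 hv
      exact ⟨q.1, q.2, by rw [extS_coe]; exact hq⟩
    have := hmain (3 - α) (extS ε ρ v) (by linarith) he hne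
    linarith
  have key := le_sq_of_eigen (matA ε ρ) (matA_isHermitian ε ρ) heig (fun q => f q.1)
  -- translate back to sums over the states
  have hcongr : ∀ (i : Fin 3) (p : K → Fin 3),
      condE ε ρ i (extS ε ρ (fun q => f q.1)) p = condE ε ρ i f p := by
    intro i p
    refine condE_congr (fun x hx => ?_) p
    exact extS_coe ε ρ (fun q => f q.1) ⟨x, hx⟩
  have hmv : ∀ q : {p : K → Fin 3 // p ∈ states ε ρ},
      (matA ε ρ *ᵥ (fun q => f q.1)) q = ∑ i : Fin 3, (f q.1 - condE ε ρ i f q.1) := by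
    intro q
    rw [matA_mulVec]
    exact sum_congr rfl fun i _ => by rw [hcongr]
  simp only [dotProduct, hmv] at key
  rw [← Finset.sum_coe_sort (states ε ρ) (fun pos => f pos * ∑ i, (f pos - condE ε ρ i f pos)),
    ← Finset.sum_coe_sort (states ε ρ) (fun pos => (∑ i, (f pos - condE ε ρ i f pos)) ^ 2)]
  calc ∑ q : {p : K → Fin 3 // p ∈ states ε ρ}, f q.1 * ∑ i, (f q.1 - condE ε ρ i f q.1)
      ≤ ∑ q : {p : K → Fin 3 // p ∈ states ε ρ},
          (∑ i, (f q.1 - condE ε ρ i f q.1)) * (∑ i, (f q.1 - condE ε ρ i f q.1)) := key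
    _ = _ := sum_congr rfl fun q _ => by ring

end Crest.Agent.S0453T
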