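import Crest.Agent.S0453T.Eigen
import Crest.Agent.S0453T.Spec3

/-!
Row 299 / S0453, lemma (T) in the abstract 3-box form (helper69's proof, board post 929):
balls `K` with charges `ε k = ±1`, three boxes, prescribed net charges `ρ`, uniform measure on
the states, `condE i` = conditional expectation given the content of box `i`.  Then
`A := ∑ i, (I - condE i)` satisfies `⟨f, A f⟩ ≤ ⟨A f, A f⟩` (`three_box`), equivalently the
cross terms are nonnegative (`three_box_cross`).
-/

set_option autoImplicit false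
set_option linter.unusedSectionVars false
open Finset

namespace Crest.Agent.S0453T

variable {K : Type} [Fintype K] [DecidableEq K]

/-- **Lemma (T), abstract 3-box form.** -/
theorem three_box (ε : K → ℤ) (hε : ∀ k, ε k = 1 ∨ ε k = -1) (ρ : Fin 3 → ℤ)
    (f : (K → Fin 3) → ℝ) :
    ∑ pos ∈ states ε ρ, f pos * ∑ i, (f pos - condE ε ρ i f pos)
      ≤ ∑ pos ∈ states ε ρ, (∑ i, (f pos - condE ε ρ i f pos)) ^ 2 :=
  three_box_of_eigen ε ρ (fun lam e hlam he hne => eigen_main hε lam e hlam he hne) f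

/-- `condE i` is self-adjoint for the counting inner product on the states -/
lemma condE_symm (ε : K → ℤ) (ρ : Fin 3 → ℤ) (i : Fin 3) (f u : (K → Fin 3) → ℝ) :
    ∑ p ∈ states ε ρ, condE ε ρ i f p * u p = ∑ p ∈ states ε ρ, f p * condE ε ρ i u p := by
  have h1 : ∀ p ∈ states ε ρ, condE ε ρ i f p * u p
      = ∑ x ∈ states ε ρ, if box x i = box p i
          then f x * u p / ((cls ε ρ i p).card : ℝ) else 0 := by
    intro p _
    unfold condE cls
    rw [sum_filter, sum_div, sum_mul]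
    refine sum_congr rfl fun x _ => ?_
    by_cases h : box x i = box p i
    · rw [if_pos h, if_pos h]; ring
    · rw [if_neg h, if_neg h]; simp
  have h2 : ∀ p ∈ states ε ρ, f p * condE ε ρ i u p
      = ∑ x ∈ states ε ρ, if box p i = box x i
          then f p * u x / ((cls ε ρ i x).card : ℝ) else 0 := by
    intro p _
    unfold condE cls
    rw [sum_filter, sum_div, mul_sum]
    refine sum_congr rfl fun x _ => ?_
    by_cases h : box x i = box p i
    · rw [if_pos h, if_pos h.symm]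
      have : cls ε ρ i x = cls ε ρ i p := cls_eq_of_box_eq h
      unfold cls at this
      rw [this]; ring
    · rw [if_neg h, if_neg (fun e => h e.symm)]; simp
  rw [sum_congr rfl h1, sum_congr rfl h2, sum_comm]

/-- Pythagoras: `∑ (f - E f)² = ∑ f (f - E f)` -/
lemma sum_sq_sub_condE (ε : K → ℤ) (ρ : Fin 3 → ℤ) (i : Fin 3) (f : (K → Fin 3) → ℝ) :
    ∑ p ∈ states ε ρ, (f p - condE ε ρ i f p) ^ 2
      = ∑ p ∈ states ε ρ, f p * (f p - condE ε ρ i f p) := by
  have h1 : ∑ p ∈ states ε ρ, condE ε ρ i f p * condE ε ρ i f p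
      = ∑ p ∈ states ε ρ, f p * condE ε ρ i f p := by
    rw [condE_symm]
    refine sum_congr rfl fun p hp => ?_
    rw [condE_idem (g := condE ε ρ i f) (fun _ _ _ _ hb => condE_eq_of_box_eq f hb) hp]
  have h2 : ∑ p ∈ states ε ρ, (f p - condE ε ρ i f p) ^ 2
      = ∑ p ∈ states ε ρ, f p * (f p - condE ε ρ i f p)
        - (∑ p ∈ states ε ρ, f p * condE ε ρ i f p
          - ∑ p ∈ states ε ρ, condE ε ρ i f p * condE ε ρ i f p) := by
    rw [← sum_sub_distrib, ← sum_sub_distrib]
    exact sum_congr rfl fun p _ => by ring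
  rw [h2, h1, sub_self, sub_zero]

/-- **Lemma (T), cross-term form**: `∑_{i ≠ i'} ⟨f - E_i f, f - E_i' f⟩ ≥ 0`. -/
theorem three_box_cross (ε : K → ℤ) (hε : ∀ k, ε k = 1 ∨ ε k = -1) (ρ : Fin 3 → ℤ)
    (f : (K → Fin 3) → ℝ) :
    0 ≤ ∑ i : Fin 3, ∑ i' ∈ univ.erase i, ∑ pos ∈ states ε ρ,
          (f pos - condE ε ρ i f pos) * (f pos - condE ε ρ i' f pos) := by
  have h := three_box ε hε ρ f
  have e1 : ∑ pos ∈ states ε ρ, (∑ i, (f pos - condE ε ρ i f pos)) ^ 2
      = ∑ i : Fin 3, ∑ pos ∈ states ε ρ, (f pos - condE ε ρ i f pos) ^ 2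
        + ∑ i : Fin 3, ∑ i' ∈ univ.erase i, ∑ pos ∈ states ε ρ,
          (f pos - condE ε ρ i f pos) * (f pos - condE ε ρ i' f pos) := by
    have e2 : ∀ pos, (∑ i, (f pos - condE ε ρ i f pos)) ^ 2
        = ∑ i : Fin 3, ((f pos - condE ε ρ i f pos) ^ 2
          + ∑ i' ∈ univ.erase i, (f pos - condE ε ρ i f pos) * (f pos - condE ε ρ i' f pos)) := by
      intro pos
      rw [sq, sum_mul]
      refine sum_congr rfl fun i _ => ?_
      rw [mul_sum, ← add_sum_erase _ _ (mem_univ i)]
      ring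
    rw [sum_congr rfl fun pos _ => e2 pos, sum_comm, ← sum_add_distrib]
    refine sum_congr rfl fun i _ => ?_
    rw [sum_add_distrib]
    congr 1
    rw [sum_comm]
  have e3 : ∑ pos ∈ states ε ρ, f pos * ∑ i, (f pos - condE ε ρ i f pos)
      = ∑ i : Fin 3, ∑ pos ∈ states ε ρ, (f pos - condE ε ρ i f pos) ^ 2 := by
    rw [sum_congr rfl fun pos _ => mul_sum _ _ _, sum_comm]
    exact sum_congr rfl fun i _ => (sum_sq_sub_condE ε ρ i f).symm
  rw [e1, e3] at h
  linarith

end Crest.Agent.S0453T
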