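import Crest.Agent.S0453T.Defs

/-!
Row 299 / S0453, lemma (T), 3-box system: basic algebra of `condE` and the swap action.
-/

set_option autoImplicit false
set_option linter.unusedSectionVars false
open Finset

namespace Crest.Agent.S0453T

variable {K : Type} [Fintype K] [DecidableEq K] {ε : K → ℤ} {ρ : Fin 3 → ℤ}

lemma mem_states {pos : K → Fin 3} :
    pos ∈ states ε ρ ↔ ∀ i, ∑ k, (if pos k = i then ε k else 0) = ρ i := by
  simp [states]

lemma mem_box {pos : K → Fin 3} {i : Fin 3} {k : K} : k ∈ box pos i ↔ pos k = i := by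
  simp [box]

lemma mem_cls {i : Fin 3} {pos pos' : K → Fin 3} :
    pos' ∈ cls ε ρ i pos ↔ pos' ∈ states ε ρ ∧ box pos' i = box pos i := by
  simp [cls]

lemma self_mem_cls {i : Fin 3} {pos : K → Fin 3} (h : pos ∈ states ε ρ) :
    pos ∈ cls ε ρ i pos := mem_cls.2 ⟨h, rfl⟩

lemma cls_eq_of_box_eq {i : Fin 3} {p q : K → Fin 3} (h : box p i = box q i) :
    cls ε ρ i p = cls ε ρ i q := by
  ext x; simp [mem_cls, h]

lemma cls_card_pos {i : Fin 3} {pos : K → Fin 3} (h : pos ∈ states ε ρ) :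
    0 < ((cls ε ρ i pos).card : ℝ) := by
  exact_mod_cast card_pos.2 ⟨pos, self_mem_cls h⟩

lemma condE_eq_of_box_eq {i : Fin 3} (f : (K → Fin 3) → ℝ) {p q : K → Fin 3}
    (h : box p i = box q i) : condE ε ρ i f p = condE ε ρ i f q := by
  unfold condE; rw [cls_eq_of_box_eq h]

lemma condE_congr {i : Fin 3} {f g : (K → Fin 3) → ℝ} (h : ∀ p ∈ states ε ρ, f p = g p)
    (p : K → Fin 3) : condE ε ρ i f p = condE ε ρ i g p := by
  unfold condE
  congr 1
  exact sum_congr rfl fun x hx => h x (mem_cls.1 hx).1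

lemma condE_add {i : Fin 3} (f g : (K → Fin 3) → ℝ) (p : K → Fin 3) :
    condE ε ρ i (fun x => f x + g x) p = condE ε ρ i f p + condE ε ρ i g p := by
  unfold condE; rw [sum_add_distrib, add_div]

lemma condE_const_mul {i : Fin 3} (c : ℝ) (f : (K → Fin 3) → ℝ) (p : K → Fin 3) :
    condE ε ρ i (fun x => c * f x) p = c * condE ε ρ i f p := by
  unfold condE; rw [← mul_sum, mul_div_assoc]

lemma condE_sum {ι : Type} (s : Finset ι) {i : Fin 3} (F : ι → (K → Fin 3) → ℝ)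
    (p : K → Fin 3) :
    condE ε ρ i (fun x => ∑ a ∈ s, F a x) p = ∑ a ∈ s, condE ε ρ i (F a) p := by
  unfold condE; rw [sum_comm, sum_div]

lemma condE_idem {i : Fin 3} {g : (K → Fin 3) → ℝ}
    (hg : ∀ p ∈ states ε ρ, ∀ q ∈ states ε ρ, box p i = box q i → g p = g q)
    {p : K → Fin 3} (hp : p ∈ states ε ρ) : condE ε ρ i g p = g p := by
  unfold condE
  have h1 : ∀ x ∈ cls ε ρ i p, g x = g p :=
    fun x hx => hg x (mem_cls.1 hx).1 p hp (mem_cls.1 hx).2
  rw [sum_congr rfl h1, sum_const, nsmul_eq_mul]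
  have := (cls_card_pos (ε := ε) (ρ := ρ) (i := i) hp).ne'
  field_simp

/-- a constant is reproduced -/
lemma condE_const {i : Fin 3} (c : ℝ) {p : K → Fin 3} (hp : p ∈ states ε ρ) :
    condE ε ρ i (fun _ => c) p = c :=
  condE_idem (g := fun _ => c) (fun _ _ _ _ _ => rfl) hp

/-! ### the swap action -/

lemma eps_swap {k₁ k₂ : K} (hk : ε k₁ = ε k₂) (k : K) : ε (Equiv.swap k₁ k₂ k) = ε k := by
  by_cases h1 : k = k₁
  · subst h1; rw [Equiv.swap_apply_left]; exact hk.symm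
  · by_cases h2 : k = k₂
    · subst h2; rw [Equiv.swap_apply_right]; exact hk
    · rw [Equiv.swap_apply_of_ne_of_ne h1 h2]

lemma swap_mem_states {k₁ k₂ : K} (hk : ε k₁ = ε k₂) {p : K → Fin 3} (hp : p ∈ states ε ρ) :
    p ∘ Equiv.swap k₁ k₂ ∈ states ε ρ := by
  rw [mem_states] at hp ⊢
  intro i
  rw [← hp i]
  refine Fintype.sum_equiv (Equiv.swap k₁ k₂) _ _ fun k => ?_
  simp only [Function.comp, eps_swap hk]

lemma comp_swap_swap (k₁ k₂ : K) (p : K → Fin 3) :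
    (p ∘ Equiv.swap k₁ k₂) ∘ Equiv.swap k₁ k₂ = p := by
  funext k; simp

lemma mem_box_swap {k₁ k₂ : K} {p : K → Fin 3} {i : Fin 3} {k : K} :
    k ∈ box (p ∘ Equiv.swap k₁ k₂) i ↔ Equiv.swap k₁ k₂ k ∈ box p i := by
  simp [mem_box]

lemma box_swap_eq {k₁ k₂ : K} {p q : K → Fin 3} {i : Fin 3} (h : box p i = box q i) :
    box (p ∘ Equiv.swap k₁ k₂) i = box (q ∘ Equiv.swap k₁ k₂) i := by
  ext k; rw [mem_box_swap, mem_box_swap, h]

lemma ucount_swap {k₁ k₂ : K} (hk : ε k₁ = ε k₂) (p : K → Fin 3) (i : Fin 3) :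
    ucount ε (p ∘ Equiv.swap k₁ k₂) i = ucount ε p i := by
  unfold ucount
  refine card_bij (fun k _ => Equiv.swap k₁ k₂ k) ?_ ?_ ?_
  · intro k hk'
    simp only [mem_filter, mem_univ, true_and, Function.comp] at hk' ⊢
    exact ⟨hk'.1, by rw [eps_swap hk]; exact hk'.2⟩
  · intro a _ b _ hab
    exact (Equiv.swap k₁ k₂).injective hab
  · intro b hb
    simp only [mem_filter, mem_univ, true_and] at hb
    refine ⟨Equiv.swap k₁ k₂ b, ?_, by simp⟩
    simp only [mem_filter, mem_univ, true_and, Function.comp, Equiv.swap_apply_self]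
    exact ⟨hb.1, by rw [eps_swap hk]; exact hb.2⟩

/-- the swap is a bijection between the class of `p` and the class of `p ∘ swap` -/
lemma sum_cls_swap {k₁ k₂ : K} (hk : ε k₁ = ε k₂) (j : Fin 3) (p : K → Fin 3)
    (f : (K → Fin 3) → ℝ) :
    ∑ x ∈ cls ε ρ j (p ∘ Equiv.swap k₁ k₂), f x
      = ∑ x ∈ cls ε ρ j p, f (x ∘ Equiv.swap k₁ k₂) := by
  refine sum_nbij' (fun x => x ∘ Equiv.swap k₁ k₂) (fun x => x ∘ Equiv.swap k₁ k₂) ?_ ?_ ?_ ?_ ?_
  · intro x hx
    rw [mem_cls] at hx ⊢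
    refine ⟨swap_mem_states hk hx.1, ?_⟩
    have := box_swap_eq (k₁ := k₁) (k₂ := k₂) hx.2
    rwa [comp_swap_swap] at this
  · intro x hx
    rw [mem_cls] at hx ⊢
    exact ⟨swap_mem_states hk hx.1, box_swap_eq hx.2⟩
  · intro x _; exact comp_swap_swap k₁ k₂ x
  · intro x _; exact comp_swap_swap k₁ k₂ x
  · intro x _; rw [comp_swap_swap]

lemma card_cls_swap {k₁ k₂ : K} (hk : ε k₁ = ε k₂) (j : Fin 3) (p : K → Fin 3) :
    (cls ε ρ j (p ∘ Equiv.swap k₁ k₂)).card = (cls ε ρ j p).card := by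
  have := sum_cls_swap (ρ := ρ) hk j p (fun _ => (1 : ℝ))
  simp only [sum_const, nsmul_eq_mul, mul_one] at this
  exact_mod_cast this

lemma condE_swap {k₁ k₂ : K} (hk : ε k₁ = ε k₂) (j : Fin 3) (p : K → Fin 3)
    (f : (K → Fin 3) → ℝ) :
    condE ε ρ j f (p ∘ Equiv.swap k₁ k₂)
      = condE ε ρ j (fun x => f (x ∘ Equiv.swap k₁ k₂)) p := by
  unfold condE
  rw [sum_cls_swap hk, card_cls_swap hk]

end Crest.Agent.S0453T
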