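import Crest.Agent.S0453T.Defs

/-!
Row 299 / S0453, lemma (T), abstract 3-box system (helper48's `Defs.lean`): the fibre count

  `#{pos' ∈ cls i pos : ucount pos' j = t} = C(M₊, t) · C(M₋, t - ρ j)`

(`M₊`, `M₋` = numbers of `+` / `-` balls outside box `i`), helper61.
-/

set_option autoImplicit false
open Finset

namespace Crest.Agent.S0453T

variable {K : Type} [Fintype K] [DecidableEq K]

/-- number of `-` balls in box `i` -/
def wcount (ε : K → ℤ) (pos : K → Fin 3) (i : Fin 3) : ℕ :=
  (univ.filter fun k => pos k = i ∧ ε k = -1).card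

omit [DecidableEq K] in
/-- the net charge of a box is `#(+ balls) - #(- balls)` -/
lemma charge_eq (ε : K → ℤ) (hε : ∀ k, ε k = 1 ∨ ε k = -1) (pos : K → Fin 3) (i : Fin 3) :
    ∑ k, (if pos k = i then ε k else 0) = (ucount ε pos i : ℤ) - (wcount ε pos i : ℤ) := by
  have h : ∀ k, (if pos k = i then ε k else 0)
      = (if pos k = i ∧ ε k = 1 then (1 : ℤ) else 0)
        - (if pos k = i ∧ ε k = -1 then (1 : ℤ) else 0) := by
    intro k
    rcases hε k with h | h <;> by_cases hp : pos k = i <;> simp [h, hp]
  rw [sum_congr rfl fun k _ => h k, sum_sub_distrib]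
  simp only [ucount, wcount, card_filter, Nat.cast_sum, Nat.cast_ite, Nat.cast_one, Nat.cast_zero]

omit [DecidableEq K] in
/-- the three charges add up to the total charge -/
lemma sum_charge (ε : K → ℤ) (pos : K → Fin 3) :
    ∑ x : Fin 3, ∑ k, (if pos k = x then ε k else 0) = ∑ k, ε k := by
  rw [sum_comm]
  refine sum_congr rfl fun k _ => ?_
  simp

lemma third_box : ∀ i j : Fin 3, i ≠ j → ∃ l : Fin 3, l ≠ i ∧ l ≠ j ∧ ∀ x : Fin 3, x = i ∨ x = j ∨ x = l := by
  decide

lemma sum_three {i j l : Fin 3} (hij : i ≠ j) (hli : l ≠ i) (hlj : l ≠ j)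
    (hx : ∀ x : Fin 3, x = i ∨ x = j ∨ x = l) (F : Fin 3 → ℤ) :
    ∑ x : Fin 3, F x = F i + F j + F l := by
  have hu : (univ : Finset (Fin 3)) = {i, j, l} := by
    ext x
    simp only [mem_univ, mem_insert, mem_singleton, true_iff]
    exact hx x
  rw [hu, sum_insert, sum_insert, sum_singleton]
  · ring
  · simpa using hlj.symm
  · simp only [mem_insert, mem_singleton, not_or]
    exact ⟨hij, hli.symm⟩

/-- core form of the fibre count, with the number `t'` of `-` balls in box `j` explicit -/
theorem card_cls_ucount' (ε : K → ℤ) (hε : ∀ k, ε k = 1 ∨ ε k = -1) (ρ : Fin 3 → ℤ)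
    (pos : K → Fin 3) (hpos : pos ∈ states ε ρ) (i j : Fin 3) (hij : i ≠ j) (t t' : ℕ)
    (htt : (t : ℤ) - (t' : ℤ) = ρ j) :
    ((cls ε ρ i pos).filter fun pos' => ucount ε pos' j = t).card
      = ((univ.filter fun k => pos k ≠ i ∧ ε k = 1).card).choose t
        * ((univ.filter fun k => pos k ≠ i ∧ ε k = -1).card).choose t' := by
  classical
  obtain ⟨l, hli, hlj, hx⟩ := third_box i j hij
  have hposρ : ∀ x, ∑ k, (if pos k = x then ε k else 0) = ρ x := by
    simpa [states] using hpos
  set Op : Finset K := univ.filter fun k => pos k ≠ i ∧ ε k = 1 with hOp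
  set Om : Finset K := univ.filter fun k => pos k ≠ i ∧ ε k = -1 with hOm
  rw [← card_powersetCard t Op, ← card_powersetCard t' Om, ← card_product]
  -- the two maps
  let φ : (K → Fin 3) → Finset K × Finset K := fun q =>
    (univ.filter fun k => q k = j ∧ ε k = 1, univ.filter fun k => q k = j ∧ ε k = -1)
  let ψ : Finset K × Finset K → (K → Fin 3) := fun S k =>
    if pos k = i then i else if k ∈ S.1 ∨ k ∈ S.2 then j else l
  refine card_nbij' φ ψ ?_ ?_ ?_ ?_
  · -- φ maps into the product
    intro q hq
    rw [mem_coe, mem_filter, cls, mem_filter] at hq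
    obtain ⟨⟨hqs, hqb⟩, hqu⟩ := hq
    have hqi : ∀ k, q k = i ↔ pos k = i := by
      intro k
      have := congrArg (fun s => k ∈ s) hqb
      simpa [box] using this
    have hqρ : ∑ k, (if q k = j then ε k else 0) = ρ j := by
      have : ∀ x, ∑ k, (if q k = x then ε k else 0) = ρ x := by simpa [states] using hqs
      exact this j
    rw [charge_eq ε hε q j, hqu] at hqρ
    have hw : wcount ε q j = t' := by omega
    rw [mem_coe, mem_product, mem_powersetCard, mem_powersetCard]
    refine ⟨⟨?_, hqu⟩, ⟨?_, hw⟩⟩
    · intro k hk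
      simp only [φ, mem_filter, mem_univ, true_and] at hk
      simp only [hOp, mem_filter, mem_univ, true_and]
      refine ⟨fun h => hij ?_, hk.2⟩
      rw [← (hqi k).mpr h, hk.1]
    · intro k hk
      simp only [φ, mem_filter, mem_univ, true_and] at hk
      simp only [hOm, mem_filter, mem_univ, true_and]
      refine ⟨fun h => hij ?_, hk.2⟩
      rw [← (hqi k).mpr h, hk.1]
  · -- ψ maps into the fibre
    intro S hS
    rw [mem_coe, mem_product, mem_powersetCard, mem_powersetCard] at hS
    obtain ⟨⟨hS1, hc1⟩, ⟨hS2, hc2⟩⟩ := hS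
    have h1 : ∀ k, k ∈ S.1 → pos k ≠ i ∧ ε k = 1 := by
      intro k hk
      have := hS1 hk
      simpa [hOp] using this
    have h2 : ∀ k, k ∈ S.2 → pos k ≠ i ∧ ε k = -1 := by
      intro k hk
      have := hS2 hk
      simpa [hOm] using this
    have hqi : ∀ k, ψ S k = i ↔ pos k = i := by
      intro k
      by_cases hp : pos k = i
      · simp [ψ, hp]
      · simp only [ψ, hp, if_false, iff_false]
        split_ifs
        · exact fun h => hij h.symm
        · exact hli
    have hqj : ∀ k, ψ S k = j ↔ (k ∈ S.1 ∨ k ∈ S.2) := by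
      intro k
      by_cases hp : pos k = i
      · simp only [ψ, hp, if_true]
        constructor
        · intro h; exact absurd h hij
        · rintro (h | h)
          · exact absurd hp (h1 k h).1
          · exact absurd hp (h2 k h).1
      · simp only [ψ, hp, if_false]
        split_ifs with h
        · simp [h]
        · simp only [h, iff_false]
          exact hlj
    have hu : ucount ε (ψ S) j = t := by
      rw [← hc1, ucount]
      congr 1
      ext k
      simp only [mem_filter, mem_univ, true_and, hqj]
      constructor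
      · rintro ⟨h | h, he⟩
        · exact h
        · rw [(h2 k h).2] at he; norm_num at he
      · intro h; exact ⟨Or.inl h, (h1 k h).2⟩
    have hw : wcount ε (ψ S) j = t' := by
      rw [← hc2, wcount]
      congr 1
      ext k
      simp only [mem_filter, mem_univ, true_and, hqj]
      constructor
      · rintro ⟨h | h, he⟩
        · rw [(h1 k h).2] at he; norm_num at he
        · exact h
      · intro h; exact ⟨Or.inr h, (h2 k h).2⟩
    have hci : ∑ k, (if ψ S k = i then ε k else 0) = ρ i := by
      rw [← hposρ i]
      refine sum_congr rfl fun k _ => ?_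
      simp only [hqi]
    have hcj : ∑ k, (if ψ S k = j then ε k else 0) = ρ j := by
      rw [charge_eq ε hε, hu, hw, htt]
    have hcl : ∑ k, (if ψ S k = l then ε k else 0) = ρ l := by
      have e1 := sum_charge ε (ψ S)
      have e2 := sum_charge ε pos
      rw [sum_three hij hli hlj hx] at e1 e2
      rw [hposρ i, hposρ j, hposρ l] at e2
      rw [hci, hcj] at e1
      linarith
    rw [mem_coe, mem_filter, cls, mem_filter]
    refine ⟨⟨?_, ?_⟩, hu⟩
    · simp only [states, mem_filter, mem_univ, true_and]
      intro x
      rcases hx x with rfl | rfl | rfl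
      · exact hci
      · exact hcj
      · exact hcl
    · ext k
      simp only [box, mem_filter, mem_univ, true_and, hqi]
  · -- left inverse
    intro q hq
    rw [mem_coe, mem_filter, cls, mem_filter] at hq
    obtain ⟨⟨hqs, hqb⟩, hqu⟩ := hq
    have hqi : ∀ k, q k = i ↔ pos k = i := by
      intro k
      have := congrArg (fun s => k ∈ s) hqb
      simpa [box] using this
    funext k
    by_cases hp : pos k = i
    · simp only [ψ, hp, if_true]
      exact ((hqi k).mpr hp).symm
    · simp only [ψ, φ, hp, if_false, mem_filter, mem_univ, true_and]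
      by_cases hqj : q k = j
      · rcases hε k with h | h <;> simp [hqj, h]
      · have hqi' : q k ≠ i := fun h => hp ((hqi k).mp h)
        simp only [hqj, false_and, or_self, if_false]
        rcases hx (q k) with h | h | h
        · exact absurd h hqi'
        · exact absurd h hqj
        · exact h.symm
  · -- right inverse
    intro S hS
    rw [mem_coe, mem_product, mem_powersetCard, mem_powersetCard] at hS
    obtain ⟨⟨hS1, hc1⟩, ⟨hS2, hc2⟩⟩ := hS
    have h1 : ∀ k, k ∈ S.1 → pos k ≠ i ∧ ε k = 1 := by
      intro k hk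
      have := hS1 hk
      simpa [hOp] using this
    have h2 : ∀ k, k ∈ S.2 → pos k ≠ i ∧ ε k = -1 := by
      intro k hk
      have := hS2 hk
      simpa [hOm] using this
    have hqj : ∀ k, ψ S k = j ↔ (k ∈ S.1 ∨ k ∈ S.2) := by
      intro k
      by_cases hp : pos k = i
      · simp only [ψ, hp, if_true]
        constructor
        · intro h; exact absurd h hij
        · rintro (h | h)
          · exact absurd hp (h1 k h).1
          · exact absurd hp (h2 k h).1
      · simp only [ψ, hp, if_false]
        split_ifs with h
        · simp [h]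
        · simp only [h, iff_false]
          exact hlj
    apply Prod.ext
    · ext k
      simp only [φ, mem_filter, mem_univ, true_and, hqj]
      constructor
      · rintro ⟨h | h, he⟩
        · exact h
        · rw [(h2 k h).2] at he; norm_num at he
      · intro h; exact ⟨Or.inl h, (h1 k h).2⟩
    · ext k
      simp only [φ, mem_filter, mem_univ, true_and, hqj]
      constructor
      · rintro ⟨h | h, he⟩
        · rw [(h1 k h).2] at he; norm_num at he
        · exact h
      · intro h; exact ⟨Or.inr h, (h2 k h).2⟩

/-- **S3** (interface form): the number of states in the class of `pos` (content of box `i`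
fixed) having exactly `t` plus-balls in box `j ≠ i`. -/
theorem card_cls_ucount (ε : K → ℤ) (hε : ∀ k, ε k = 1 ∨ ε k = -1) (ρ : Fin 3 → ℤ)
    (pos : K → Fin 3) (hpos : pos ∈ states ε ρ) (i j : Fin 3) (hij : i ≠ j) (t : ℕ) :
    ((cls ε ρ i pos).filter fun pos' => ucount ε pos' j = t).card
      = ((univ.filter fun k => pos k ≠ i ∧ ε k = 1).card).choose t
        * (if ρ j ≤ (t : ℤ) then ((univ.filter fun k => pos k ≠ i ∧ ε k = -1).card).choose ((t : ℤ) - ρ j).toNat else 0) := by
  by_cases h : ρ j ≤ (t : ℤ)
  · rw [if_pos h]
    apply card_cls_ucount' ε hε ρ pos hpos i j hij t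
    rw [Int.toNat_of_nonneg (by linarith)]
    ring
  · rw [if_neg h, mul_zero, card_eq_zero, filter_eq_empty_iff]
    intro q hq hqu
    rw [cls, mem_filter] at hq
    have hqρ : ∑ k, (if q k = j then ε k else 0) = ρ j := by
      have : ∀ x, ∑ k, (if q k = x then ε k else 0) = ρ x := by simpa [states] using hq.1
      exact this j
    rw [charge_eq ε hε q j, hqu] at hqρ
    apply h
    have : (0 : ℤ) ≤ (wcount ε q j : ℤ) := Int.natCast_nonneg _
    linarith

end Crest.Agent.S0453T
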