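import Crest.Agent.S0453T.Basic
import Crest.Agent.S0453T.CardCls61
import Crest.Agent.S0453.HyperMono

/-!
Row 299 / S0453, lemma (T), 3-box system, stage 2 glue: sums over a class `cls j p` of a function
of the count `ucount · i` (`i ≠ j`) as a binomial-weighted sum (weights `HyperMono.w`).
-/

set_option autoImplicit false
open Finset

namespace Crest.Agent.S0453T

variable {K : Type} [Fintype K] [DecidableEq K] {ε : K → ℤ} {ρ : Fin 3 → ℤ}

/-- number of `+` balls outside box `j` -/
def Pout (ε : K → ℤ) (p : K → Fin 3) (j : Fin 3) : ℕ :=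
  (univ.filter fun k => p k ≠ j ∧ ε k = 1).card

/-- number of `-` balls outside box `j` -/
def Mout (ε : K → ℤ) (p : K → Fin 3) (j : Fin 3) : ℕ :=
  (univ.filter fun k => p k ≠ j ∧ ε k = -1).card

omit [DecidableEq K] in
lemma ucount_add_Pout (ε : K → ℤ) (p : K → Fin 3) (j : Fin 3) :
    ucount ε p j + Pout ε p j = (univ.filter fun k => ε k = 1).card := by
  unfold ucount Pout
  simp only [card_filter]
  rw [← sum_add_distrib]
  refine sum_congr rfl fun k _ => ?_
  by_cases h1 : p k = j <;> by_cases h2 : ε k = 1 <;> simp [h1, h2]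

omit [DecidableEq K] in
lemma wcount_add_Mout (ε : K → ℤ) (p : K → Fin 3) (j : Fin 3) :
    wcount ε p j + Mout ε p j = (univ.filter fun k => ε k = -1).card := by
  unfold wcount Mout
  simp only [card_filter]
  rw [← sum_add_distrib]
  refine sum_congr rfl fun k _ => ?_
  by_cases h1 : p k = j <;> by_cases h2 : ε k = -1 <;> simp [h1, h2]

lemma cls_pos_iff {p x : K → Fin 3} {j : Fin 3} (hx : x ∈ cls ε ρ j p) (k : K) :
    x k = j ↔ p k = j := by
  have hbox : box x j = box p j := (mem_cls.1 hx).2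
  rw [← mem_box, ← mem_box, hbox]

lemma Pout_eq_of_cls {p x : K → Fin 3} {j : Fin 3} (hx : x ∈ cls ε ρ j p) :
    Pout ε x j = Pout ε p j := by
  unfold Pout
  congr 1
  ext k
  simp only [mem_filter, mem_univ, true_and, ne_eq, cls_pos_iff hx k]

lemma Mout_eq_of_cls {p x : K → Fin 3} {j : Fin 3} (hx : x ∈ cls ε ρ j p) :
    Mout ε x j = Mout ε p j := by
  unfold Mout
  congr 1
  ext k
  simp only [mem_filter, mem_univ, true_and, ne_eq, cls_pos_iff hx k]

omit [DecidableEq K] in
/-- the `+` counts of the two boxes other than `j` add up to `Pout` -/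
lemma Pout_eq_add (ε : K → ℤ) (x : K → Fin 3) {i j l : Fin 3} (hij : j ≠ i) (hlj : l ≠ j)
    (hli : l ≠ i) : Pout ε x j = ucount ε x i + ucount ε x l := by
  have hall : ∀ (i j l : Fin 3), j ≠ i → l ≠ j → l ≠ i → ∀ y : Fin 3, y = i ∨ y = j ∨ y = l := by
    decide
  unfold Pout ucount
  simp only [card_filter]
  rw [← sum_add_distrib]
  refine sum_congr rfl fun k _ => ?_
  rcases hall i j l hij hlj hli (x k) with h | h | h
  · by_cases h2 : ε k = 1 <;> simp [h, h2, hij.symm, hli.symm]
  · by_cases h2 : ε k = 1 <;> simp [h, h2, hij, hlj.symm]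
  · by_cases h2 : ε k = 1 <;> simp [h, h2, hlj, hli]

/-- inside a class of box `j`, the `+` counts of the two other boxes add up to `Pout` -/
theorem ucount_third {p : K → Fin 3} {i j l : Fin 3} (hij : j ≠ i) (hlj : l ≠ j) (hli : l ≠ i)
    {x : K → Fin 3} (hx : x ∈ cls ε ρ j p) :
    ucount ε x l = Pout ε p j - ucount ε x i := by
  have h1 := Pout_eq_add ε x hij hlj hli
  have h2 := Pout_eq_of_cls hx
  omega

/-- class sum of a function of `ucount · i` -/
theorem sum_cls_ucount (hε : ∀ k, ε k = 1 ∨ ε k = -1) {p : K → Fin 3} (hp : p ∈ states ε ρ)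
    {i j : Fin 3} (hij : j ≠ i) (G : ℕ → ℝ) :
    ∑ x ∈ cls ε ρ j p, G (ucount ε x i)
      = ∑ t ∈ range (Pout ε p j + 1),
          S0453R.HyperMono.w (Pout ε p j) (Mout ε p j) (ρ i) t * G t := by
  have hmaps : ∀ x ∈ cls ε ρ j p, ucount ε x i ∈ range (Pout ε p j + 1) := by
    intro x hx
    rw [mem_range, Nat.lt_succ_iff, ← Pout_eq_of_cls hx]
    unfold ucount Pout
    apply card_le_card
    intro k hk
    simp only [mem_filter, mem_univ, true_and] at hk ⊢
    exact ⟨by rw [hk.1]; exact hij.symm, hk.2⟩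
  rw [← sum_fiberwise_of_maps_to hmaps (fun x => G (ucount ε x i))]
  refine sum_congr rfl fun t _ => ?_
  have h1 : ∀ x ∈ (cls ε ρ j p).filter (fun x => ucount ε x i = t), G (ucount ε x i) = G t := by
    intro x hx
    rw [(mem_filter.1 hx).2]
  rw [sum_congr rfl h1, sum_const, nsmul_eq_mul, card_cls_ucount ε hε ρ p hp j i hij t]
  congr 1
  unfold S0453R.HyperMono.w Pout Mout
  split_ifs <;> simp

/-- changing the `+` count of box `j` by `k` changes both outside counts by `k` -/
theorem Pout_Mout_shift (hε : ∀ k, ε k = 1 ∨ ε k = -1) {p q : K → Fin 3} (hp : p ∈ states ε ρ)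
    (hq : q ∈ states ε ρ) (j : Fin 3) (k : ℕ) (h : ucount ε q j = ucount ε p j + k) :
    Pout ε p j = Pout ε q j + k ∧ Mout ε p j = Mout ε q j + k := by
  have hp1 := ucount_add_Pout ε p j
  have hq1 := ucount_add_Pout ε q j
  have hp2 := wcount_add_Mout ε p j
  have hq2 := wcount_add_Mout ε q j
  have hp3 := charge_eq ε hε p j
  have hq3 := charge_eq ε hε q j
  rw [(mem_states.1 hp) j] at hp3
  rw [(mem_states.1 hq) j] at hq3
  constructor
  · omega
  · omega

end Crest.Agent.S0453T
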