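import Crest.Agent.S0453T.Stage1

/-!
Row 299 / S0453, lemma (T), 3-box system: the two count properties used in stage 1.5 and stage 2.
-/

set_option autoImplicit false
open Finset

namespace Crest.Agent.S0453T

variable {K : Type} [Fintype K] [DecidableEq K]

/-- `h i` is a function of the number of `+` balls in box `i` -/
def CU (ε : K → ℤ) (ρ : Fin 3 → ℤ) (h : Fin 3 → (K → Fin 3) → ℝ) : Prop :=
  ∀ i, ∀ p ∈ states ε ρ, ∀ q ∈ states ε ρ, ucount ε p i = ucount ε q i → h i p = h i q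

/-- `h i` is `L`-Lipschitz in the number of `+` balls in box `i` -/
def LC (ε : K → ℤ) (ρ : Fin 3 → ℤ) (h : Fin 3 → (K → Fin 3) → ℝ) (L : ℝ) : Prop :=
  ∀ i, ∀ p ∈ states ε ρ, ∀ q ∈ states ε ρ,
    |h i p - h i q| ≤ L * |(ucount ε p i : ℝ) - (ucount ε q i : ℝ)|

end Crest.Agent.S0453T
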