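import Crest.Agent.S0453T.Defs2
import Crest.Agent.S0453T.ClsSum

/-!
Row 299 / S0453, lemma (T), 3-box system, STAGE 2 (count chain): the Gram operator `Top`
preserves `L`-Lipschitz dependence on the `+` counts.

Route: McShane extension of `h i` to a globally `L`-Lipschitz function of the count (so that no
intermediate states are needed), the class-sum formula (`ClsSum.lean`, based on helper61's
`card_cls_ucount`), and helper25's one-step numeric contraction `HyperMono.stage2`.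
-/

set_option autoImplicit false
open Finset

namespace Crest.Agent.S0453T

variable {K : Type} [Fintype K] [DecidableEq K] {ε : K → ℤ} {ρ : Fin 3 → ℤ}

/-! ### McShane extension -/

/-- McShane extension of a function of the count `ucount · i` to all of `ℕ` -/
noncomputable def mcs (ε : K → ℤ) (ρ : Fin 3 → ℤ) (g : (K → Fin 3) → ℝ) (i : Fin 3) (L : ℝ)
    (t : ℕ) : ℝ :=
  if hne : (states ε ρ).Nonempty then
    (states ε ρ).inf' hne (fun x => g x + L * |(ucount ε x i : ℝ) - (t : ℝ)|)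
  else 0

lemma mcs_eq {g : (K → Fin 3) → ℝ} {i : Fin 3} {L : ℝ}
    (hg : ∀ p ∈ states ε ρ, ∀ q ∈ states ε ρ,
      |g p - g q| ≤ L * |(ucount ε p i : ℝ) - (ucount ε q i : ℝ)|)
    {y : K → Fin 3} (hy : y ∈ states ε ρ) : mcs ε ρ g i L (ucount ε y i) = g y := by
  have hne : (states ε ρ).Nonempty := ⟨y, hy⟩
  unfold mcs
  rw [dif_pos hne]
  apply le_antisymm
  · calc (states ε ρ).inf' hne (fun x => g x + L * |(ucount ε x i : ℝ) - (ucount ε y i : ℝ)|)
        ≤ g y + L * |(ucount ε y i : ℝ) - (ucount ε y i : ℝ)| :=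
          Finset.inf'_le (fun x => g x + L * |(ucount ε x i : ℝ) - (ucount ε y i : ℝ)|) hy
      _ = g y := by simp
  · apply Finset.le_inf'
    intro x hx
    have h1 := hg y hy x hx
    have h2 := le_abs_self (g y - g x)
    rw [abs_sub_comm (ucount ε y i : ℝ)] at h1
    linarith

lemma mcs_lip (g : (K → Fin 3) → ℝ) (i : Fin 3) {L : ℝ} (hL : 0 ≤ L) (t : ℕ) :
    |mcs ε ρ g i L (t + 1) - mcs ε ρ g i L t| ≤ L := by
  unfold mcs
  by_cases hne : (states ε ρ).Nonempty
  · rw [dif_pos hne, dif_pos hne]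
    have hstep : ∀ x : K → Fin 3, ∀ a b : ℝ, |a - b| ≤ 1 →
        g x + L * |(ucount ε x i : ℝ) - a| - L ≤ g x + L * |(ucount ε x i : ℝ) - b| := by
      intro x a b hab
      have h1 : |(ucount ε x i : ℝ) - a| ≤ |(ucount ε x i : ℝ) - b| + |a - b| := by
        have := abs_sub_le (ucount ε x i : ℝ) b a
        rwa [abs_sub_comm b a] at this
      have h2 : L * |(ucount ε x i : ℝ) - a| ≤ L * (|(ucount ε x i : ℝ) - b| + 1) :=
        mul_le_mul_of_nonneg_left (by linarith) hL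
      linarith
    have hab : |((t + 1 : ℕ) : ℝ) - (t : ℝ)| ≤ 1 := by push_cast; simp
    have hba : |(t : ℝ) - ((t + 1 : ℕ) : ℝ)| ≤ 1 := by rw [abs_sub_comm]; exact hab
    have A : (states ε ρ).inf' hne (fun x => g x + L * |(ucount ε x i : ℝ) - (t : ℝ)|) - L
        ≤ (states ε ρ).inf' hne (fun x => g x + L * |(ucount ε x i : ℝ) - ((t + 1 : ℕ) : ℝ)|) := by
      apply Finset.le_inf'
      intro x hx
      have := Finset.inf'_le (fun x => g x + L * |(ucount ε x i : ℝ) - (t : ℝ)|) hx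
      have := hstep x (t : ℝ) ((t + 1 : ℕ) : ℝ) hba
      linarith
    have B : (states ε ρ).inf' hne (fun x => g x + L * |(ucount ε x i : ℝ) - ((t + 1 : ℕ) : ℝ)|) - L
        ≤ (states ε ρ).inf' hne (fun x => g x + L * |(ucount ε x i : ℝ) - (t : ℝ)|) := by
      apply Finset.le_inf'
      intro x hx
      have := Finset.inf'_le (fun x => g x + L * |(ucount ε x i : ℝ) - ((t + 1 : ℕ) : ℝ)|) hx
      have := hstep x ((t + 1 : ℕ) : ℝ) (t : ℝ) hab
      linarith
    rw [abs_le]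
    constructor <;> linarith
  · rw [dif_neg hne, dif_neg hne]; simpa using hL

/-! ### numeric telescoping -/

open S0453R.HyperMono in
/-- normaliser -/
noncomputable def WW (r : ℤ) (P M : ℕ) : ℝ := ∑ t ∈ range (P + 1), w P M r t

open S0453R.HyperMono in
/-- mean of `ψb(t) + ψc(P - t)` under the weights `w P M r` -/
noncomputable def EE (r : ℤ) (ψb ψc : ℕ → ℝ) (P M : ℕ) : ℝ :=
  (∑ t ∈ range (P + 1), w P M r t * (ψb t + ψc (P - t))) / WW r P M

open S0453R.HyperMono in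
lemma w_mono (r : ℤ) (P M t : ℕ) : w P M r t ≤ w (P + 1) (M + 1) r t := by
  unfold w
  split_ifs
  · apply mul_le_mul
    · exact_mod_cast Nat.choose_le_succ P t
    · exact_mod_cast Nat.choose_le_succ M _
    · positivity
    · positivity
  · exact le_refl _

open S0453R.HyperMono in
lemma WW_mono (r : ℤ) (P M : ℕ) : WW r P M ≤ WW r (P + 1) (M + 1) := by
  unfold WW
  rw [sum_range_succ _ (P + 1)]
  have h1 : ∑ t ∈ range (P + 1), w P M r t ≤ ∑ t ∈ range (P + 1), w (P + 1) (M + 1) r t :=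
    sum_le_sum fun t _ => w_mono r P M t
  have h2 := w_nonneg (P + 1) (M + 1) r (P + 1)
  linarith

lemma WW_pos (r : ℤ) (P M : ℕ) (h : 0 < WW r P M) (k : ℕ) : 0 < WW r (P + k) (M + k) := by
  induction k with
  | zero => simpa using h
  | succ k ih => exact lt_of_lt_of_le ih (by rw [← add_assoc, ← add_assoc]; exact WW_mono r _ _)

lemma EE_step (r : ℤ) (ψb ψc : ℕ → ℝ) (N : ℝ)
    (hb : ∀ s, |ψb (s + 1) - ψb s| ≤ N) (hc : ∀ s, |ψc (s + 1) - ψc s| ≤ N) (P M : ℕ)
    (h : 0 < WW r P M) : |EE r ψb ψc (P + 1) (M + 1) - EE r ψb ψc P M| ≤ N := by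
  have h' : 0 < WW r (P + 1) (M + 1) := lt_of_lt_of_le h (WW_mono r P M)
  have := S0453R.HyperMono.stage2 P M r ψb ψc N hb hc h' h
  rw [abs_sub_comm]
  exact this

lemma EE_tele (r : ℤ) (ψb ψc : ℕ → ℝ) (N : ℝ)
    (hb : ∀ s, |ψb (s + 1) - ψb s| ≤ N) (hc : ∀ s, |ψc (s + 1) - ψc s| ≤ N) (P M : ℕ)
    (h : 0 < WW r P M) (k : ℕ) : |EE r ψb ψc (P + k) (M + k) - EE r ψb ψc P M| ≤ N * k := by
  induction k with
  | zero => simp
  | succ k ih =>
    have h1 := EE_step r ψb ψc N hb hc (P + k) (M + k) (WW_pos r P M h k)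
    have e : EE r ψb ψc (P + (k + 1)) (M + (k + 1)) - EE r ψb ψc P M
        = (EE r ψb ψc (P + k + 1) (M + k + 1) - EE r ψb ψc (P + k) (M + k))
          + (EE r ψb ψc (P + k) (M + k) - EE r ψb ψc P M) := by
      rw [← add_assoc, ← add_assoc]; ring
    rw [e]
    calc |(EE r ψb ψc (P + k + 1) (M + k + 1) - EE r ψb ψc (P + k) (M + k))
          + (EE r ψb ψc (P + k) (M + k) - EE r ψb ψc P M)|
        ≤ |EE r ψb ψc (P + k + 1) (M + k + 1) - EE r ψb ψc (P + k) (M + k)|
          + |EE r ψb ψc (P + k) (M + k) - EE r ψb ψc P M| := abs_add_le _ _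
      _ ≤ N + N * k := add_le_add h1 ih
      _ = N * ((k + 1 : ℕ) : ℝ) := by push_cast; ring

/-! ### the class formula for `Top` and stage 2 -/

lemma third_boxes (j : Fin 3) :
    ∃ i l : Fin 3, j ≠ i ∧ l ≠ j ∧ l ≠ i ∧ (univ : Finset (Fin 3)).erase j = {i, l} := by
  fin_cases j
  · exact ⟨1, 2, by decide, by decide, by decide, by decide⟩
  · exact ⟨0, 2, by decide, by decide, by decide, by decide⟩
  · exact ⟨0, 1, by decide, by decide, by decide, by decide⟩

lemma Top_eq_EE (hε : ∀ k, ε k = 1 ∨ ε k = -1) {h : Fin 3 → (K → Fin 3) → ℝ} {L : ℝ}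
    (hLC : LC ε ρ h L) {i j l : Fin 3} (hij : j ≠ i) (hlj : l ≠ j) (hli : l ≠ i)
    (huniv : (univ : Finset (Fin 3)).erase j = {i, l}) {x : K → Fin 3} (hx : x ∈ states ε ρ) :
    Top ε ρ h j x
      = EE (ρ i) (mcs ε ρ (h i) i L) (mcs ε ρ (h l) l L) (Pout ε x j) (Mout ε x j)
      ∧ 0 < WW (ρ i) (Pout ε x j) (Mout ε x j) := by
  have hcard : ((cls ε ρ j x).card : ℝ) = WW (ρ i) (Pout ε x j) (Mout ε x j) := by
    have := sum_cls_ucount hε hx hij (fun _ => (1 : ℝ))
    simp only [sum_const, nsmul_eq_mul, mul_one] at this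
    rw [this]; rfl
  have hpos : 0 < WW (ρ i) (Pout ε x j) (Mout ε x j) := by
    rw [← hcard]; exact_mod_cast cls_card_pos hx
  refine ⟨?_, hpos⟩
  have hi : ∑ y ∈ cls ε ρ j x, h i y
      = ∑ t ∈ range (Pout ε x j + 1),
          S0453R.HyperMono.w (Pout ε x j) (Mout ε x j) (ρ i) t * mcs ε ρ (h i) i L t := by
    rw [← sum_cls_ucount hε hx hij (mcs ε ρ (h i) i L)]
    refine sum_congr rfl fun y hy => ?_
    exact (mcs_eq (hLC i) (mem_cls.1 hy).1).symm
  have hl : ∑ y ∈ cls ε ρ j x, h l y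
      = ∑ t ∈ range (Pout ε x j + 1),
          S0453R.HyperMono.w (Pout ε x j) (Mout ε x j) (ρ i) t
            * mcs ε ρ (h l) l L (Pout ε x j - t) := by
    rw [← sum_cls_ucount hε hx hij (fun t => mcs ε ρ (h l) l L (Pout ε x j - t))]
    refine sum_congr rfl fun y hy => ?_
    rw [← ucount_third hij hlj hli hy]
    exact (mcs_eq (hLC l) (mem_cls.1 hy).1).symm
  unfold Top EE
  rw [huniv, sum_pair hli.symm]
  unfold condE
  rw [hcard, hi, hl, ← add_div, ← sum_add_distrib]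
  congr 1
  refine sum_congr rfl fun t _ => ?_
  ring

/-- **Stage 2**: `Top` preserves `L`-Lipschitz dependence on the `+` counts. -/
theorem stage2 (hε : ∀ k, ε k = 1 ∨ ε k = -1) {h : Fin 3 → (K → Fin 3) → ℝ} {L : ℝ}
    (hL : 0 ≤ L) (hLC : LC ε ρ h L) : LC ε ρ (Top ε ρ h) L := by
  intro j
  have main : ∀ p ∈ states ε ρ, ∀ q ∈ states ε ρ, ucount ε p j ≤ ucount ε q j →
      |Top ε ρ h j p - Top ε ρ h j q| ≤ L * |(ucount ε p j : ℝ) - (ucount ε q j : ℝ)| := by
    intro p hp q hq hpq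
    obtain ⟨k, hk⟩ := Nat.exists_eq_add_of_le hpq
    obtain ⟨i, l, hij, hlj, hli, huniv⟩ := third_boxes j
    obtain ⟨hP, hM⟩ := Pout_Mout_shift hε hp hq j k hk
    obtain ⟨ep, -⟩ := Top_eq_EE hε hLC hij hlj hli huniv hp
    obtain ⟨eq, hWq⟩ := Top_eq_EE hε hLC hij hlj hli huniv hq
    rw [ep, eq, hP, hM, hk]
    have := EE_tele (ρ i) (mcs ε ρ (h i) i L) (mcs ε ρ (h l) l L) L
      (mcs_lip (h i) i hL) (mcs_lip (h l) l hL) (Pout ε q j) (Mout ε q j) hWq k
    have e : |(ucount ε p j : ℝ) - ((ucount ε p j + k : ℕ) : ℝ)| = k := by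
      push_cast
      rw [sub_add_cancel_left, abs_neg, abs_of_nonneg (Nat.cast_nonneg k)]
    rw [e]
    exact this
  intro p hp q hq
  rcases le_total (ucount ε p j) (ucount ε q j) with hpq | hpq
  · exact main p hp q hq hpq
  · have := main q hq p hp hpq
    rw [abs_sub_comm, abs_sub_comm (ucount ε p j : ℝ)]
    exact this

end Crest.Agent.S0453T
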