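import Crest.Agent.S0453T.Stage15
import Crest.Agent.S0453T.Stage2L

/-!
Row 299 / S0453, lemma (T), 3-box system: an eigenfunction of `∑ i, condE i` with eigenvalue
`> 2` is constant, hence the eigenvalue is `3`.
-/

set_option autoImplicit false
set_option linter.unusedSectionVars false
open Finset

namespace Crest.Agent.S0453T

variable {K : Type} [Fintype K] [DecidableEq K] {ε : K → ℤ} {ρ : Fin 3 → ℤ}

lemma CF_condE (e : (K → Fin 3) → ℝ) : CF ε ρ (fun i => condE ε ρ i e) :=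
  fun _ _ _ _ _ hb => condE_eq_of_box_eq e hb

/-- the eigen-triple relation -/
lemma eigen_triple {lam : ℝ} {e : (K → Fin 3) → ℝ}
    (he : ∀ p ∈ states ε ρ, ∑ i, condE ε ρ i e p = lam * e p) (j : Fin 3) {p : K → Fin 3}
    (hp : p ∈ states ε ρ) :
    (lam - 1) * condE ε ρ j e p = Top ε ρ (fun i => condE ε ρ i e) j p := by
  have key : condE ε ρ j (fun x => ∑ i, condE ε ρ i e x) p = condE ε ρ j (fun x => lam * e x) p :=
    condE_congr (fun x hx => he x hx) p
  rw [condE_sum, condE_const_mul, ← add_sum_erase _ _ (mem_univ j)] at key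
  have hidem : condE ε ρ j (condE ε ρ j e) p = condE ε ρ j e p :=
    condE_idem (g := condE ε ρ j e) (fun _ _ _ _ hb => condE_eq_of_box_eq e hb) hp
  rw [hidem] at key
  unfold Top
  linarith

lemma LC_init {h : Fin 3 → (K → Fin 3) → ℝ} (hCU : CU ε ρ h) :
    LC ε ρ h (∑ i, ∑ p ∈ states ε ρ, ∑ q ∈ states ε ρ, |h i p - h i q|) := by
  intro i p hp q hq
  set L₀ := ∑ i, ∑ p ∈ states ε ρ, ∑ q ∈ states ε ρ, |h i p - h i q| with hL₀
  have hle : |h i p - h i q| ≤ L₀ := by
    calc |h i p - h i q|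
        ≤ ∑ q ∈ states ε ρ, |h i p - h i q| :=
          single_le_sum (f := fun q => |h i p - h i q|) (fun _ _ => abs_nonneg _) hq
      _ ≤ ∑ p' ∈ states ε ρ, ∑ q ∈ states ε ρ, |h i p' - h i q| :=
          single_le_sum (f := fun p' => ∑ q ∈ states ε ρ, |h i p' - h i q|)
            (fun _ _ => sum_nonneg fun _ _ => abs_nonneg _) hp
      _ ≤ L₀ :=
          single_le_sum (f := fun i => ∑ p' ∈ states ε ρ, ∑ q ∈ states ε ρ, |h i p' - h i q|)
            (fun _ _ => sum_nonneg fun _ _ => sum_nonneg fun _ _ => abs_nonneg _) (mem_univ i)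
  have hL₀nn : 0 ≤ L₀ := le_trans (abs_nonneg _) hle
  by_cases hu : ucount ε p i = ucount ε q i
  · rw [hCU i p hp q hq hu, hu]; simp
  · have h1 : (1 : ℝ) ≤ |(ucount ε p i : ℝ) - (ucount ε q i : ℝ)| := by
      have : (ucount ε p i : ℤ) - (ucount ε q i : ℤ) ≠ 0 := by
        intro h0; apply hu; exact_mod_cast sub_eq_zero.1 h0
      have h2 : (1 : ℤ) ≤ |(ucount ε p i : ℤ) - (ucount ε q i : ℤ)| := Int.one_le_abs this
      have h3 : ((|(ucount ε p i : ℤ) - (ucount ε q i : ℤ)| : ℤ) : ℝ)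
          = |(ucount ε p i : ℝ) - (ucount ε q i : ℝ)| := by push_cast; rfl
      rw [← h3]; exact_mod_cast h2
    calc |h i p - h i q| ≤ L₀ := hle
      _ = L₀ * 1 := (mul_one _).symm
      _ ≤ L₀ * |(ucount ε p i : ℝ) - (ucount ε q i : ℝ)| := mul_le_mul_of_nonneg_left h1 hL₀nn

/-- **Eigen-claim**: an eigenfunction of `∑ i, condE i` with eigenvalue `> 2` has eigenvalue `3`. -/
theorem eigen_main (hε : ∀ k, ε k = 1 ∨ ε k = -1) (lam : ℝ) (e : (K → Fin 3) → ℝ)
    (hlam : 2 < lam) (he : ∀ p ∈ states ε ρ, ∑ i, condE ε ρ i e p = lam * e p)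
    (hne : ∃ p ∈ states ε ρ, e p ≠ 0) : lam = 3 := by
  set h : Fin 3 → (K → Fin 3) → ℝ := fun i => condE ε ρ i e with hh
  have hκ : 1 < lam - 1 := by linarith
  have hκ0 : 0 < lam - 1 := by linarith
  have hCF : CF ε ρ h := CF_condE e
  have heig : ∀ j, ∀ p ∈ states ε ρ, (lam - 1) * h j p = Top ε ρ h j p :=
    fun j p hp => eigen_triple he j hp
  have hSL : SL ε ρ h 0 := SL_zero hκ hCF heig
  have hCU : CU ε ρ h := CU_of_SL_zero hε hCF hSL
  -- stage 2: shrink the count-Lipschitz constant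
  have hstep : ∀ c, (0 ≤ c ∧ LC ε ρ h c) → (0 ≤ c / (lam - 1) ∧ LC ε ρ h (c / (lam - 1))) := by
    rintro c ⟨hc0, hc⟩
    refine ⟨div_nonneg hc0 hκ0.le, ?_⟩
    intro j p hp q hq
    have := stage2 hε hc0 hc j p hp q hq
    rw [← heig j p hp, ← heig j q hq, ← mul_sub, abs_mul, abs_of_pos hκ0] at this
    rw [div_mul_eq_mul_div, le_div_iff₀ hκ0]; linarith
  have hL0 := LC_init hCU
  have hL0nn : 0 ≤ ∑ i, ∑ p ∈ states ε ρ, ∑ q ∈ states ε ρ, |h i p - h i q| :=
    sum_nonneg fun _ _ => sum_nonneg fun _ _ => sum_nonneg fun _ _ => abs_nonneg _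
  have hall := shrink_pow (P := fun c => 0 ≤ c ∧ LC ε ρ h c) hstep ⟨hL0nn, hL0⟩
  have hconst : ∀ i, ∀ p ∈ states ε ρ, ∀ q ∈ states ε ρ, h i p = h i q := by
    intro i p hp q hq
    have hle : |h i p - h i q| ≤ 0 := by
      refine le_zero_of_forall_pow (c₀ := (∑ i, ∑ p ∈ states ε ρ, ∑ q ∈ states ε ρ, |h i p - h i q|)
        * |(ucount ε p i : ℝ) - (ucount ε q i : ℝ)|) hκ fun m => ?_
      have := (hall m).2 i p hp q hq
      rwa [div_mul_eq_mul_div] at this
    have := abs_nonpos_iff.1 hle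
    linarith
  -- `e` is constant on the states
  have hlam0 : lam ≠ 0 := by linarith
  have hec : ∀ p ∈ states ε ρ, ∀ q ∈ states ε ρ, e p = e q := by
    intro p hp q hq
    have h1 := he p hp
    have h2 := he q hq
    have h3 : ∑ i, condE ε ρ i e p = ∑ i, condE ε ρ i e q :=
      sum_congr rfl fun i _ => hconst i p hp q hq
    have : lam * e p = lam * e q := by rw [← h1, ← h2, h3]
    exact mul_left_cancel₀ hlam0 this
  obtain ⟨p₀, hp₀, hep₀⟩ := hne
  have h4 : ∀ i : Fin 3, condE ε ρ i e p₀ = e p₀ := fun i =>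
    condE_idem (g := e) (fun p hp q hq _ => hec p hp q hq) hp₀
  have h5 := he p₀ hp₀
  rw [sum_congr rfl fun i _ => h4 i] at h5
  simp only [sum_const, card_univ, Fintype.card_fin, nsmul_eq_mul] at h5
  have : (3 - lam) * e p₀ = 0 := by push_cast at h5; linarith
  rcases mul_eq_zero.1 this with h6 | h6
  · linarith
  · exact absurd h6 hep₀

end Crest.Agent.S0453T
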