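import Crest.Agent.S0453T.Basic

/-!
Row 299 / S0453, lemma (T), 3-box system: the Gram operator on triples and stage 1
(swap-Lipschitz contraction): an eigen-triple with eigenvalue `κ > 1` is invariant under swaps
of equally charged balls.
-/

set_option autoImplicit false
set_option linter.unusedSectionVars false
open Finset

namespace Crest.Agent.S0453T

variable {K : Type} [Fintype K] [DecidableEq K] {ε : K → ℤ} {ρ : Fin 3 → ℤ}

/-- class-function property of a triple -/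
def CF (ε : K → ℤ) (ρ : Fin 3 → ℤ) (h : Fin 3 → (K → Fin 3) → ℝ) : Prop :=
  ∀ i, ∀ p ∈ states ε ρ, ∀ q ∈ states ε ρ, box p i = box q i → h i p = h i q

/-- the Gram operator on triples: `(Top h) j = ∑_{i ≠ j} E[h i | box j]` -/
noncomputable def Top (ε : K → ℤ) (ρ : Fin 3 → ℤ) (h : Fin 3 → (K → Fin 3) → ℝ) (j : Fin 3)
    (p : K → Fin 3) : ℝ :=
  ∑ i ∈ univ.erase j, condE ε ρ j (h i) p

/-- swap-Lipschitz with constant `c` -/
def SL (ε : K → ℤ) (ρ : Fin 3 → ℤ) (h : Fin 3 → (K → Fin 3) → ℝ) (c : ℝ) : Prop :=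
  ∀ i, ∀ p ∈ states ε ρ, ∀ k₁ k₂ : K, ε k₁ = ε k₂ → |h i p - h i (p ∘ Equiv.swap k₁ k₂)| ≤ c

lemma abs_condE_le {i : Fin 3} {F : (K → Fin 3) → ℝ} {c : ℝ} {p : K → Fin 3}
    (hp : p ∈ states ε ρ) (h : ∀ x ∈ cls ε ρ i p, |F x| ≤ c) : |condE ε ρ i F p| ≤ c := by
  unfold condE
  have hpos := cls_card_pos (ε := ε) (ρ := ρ) (i := i) hp
  rw [abs_div, abs_of_pos hpos, div_le_iff₀ hpos]
  calc |∑ x ∈ cls ε ρ i p, F x| ≤ ∑ x ∈ cls ε ρ i p, |F x| := abs_sum_le_sum_abs _ _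
    _ ≤ ∑ _x ∈ cls ε ρ i p, c := sum_le_sum h
    _ = c * ((cls ε ρ i p).card : ℝ) := by rw [sum_const, nsmul_eq_mul, mul_comm]

lemma condE_sub {i : Fin 3} (f g : (K → Fin 3) → ℝ) (p : K → Fin 3) :
    condE ε ρ i (fun x => f x - g x) p = condE ε ρ i f p - condE ε ρ i g p := by
  unfold condE; rw [sum_sub_distrib, sub_div]

lemma box_swap_of_ne {k₁ k₂ : K} {x : K → Fin 3} {i : Fin 3} (h1 : x k₁ ≠ i) (h2 : x k₂ ≠ i) :
    box (x ∘ Equiv.swap k₁ k₂) i = box x i := by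
  ext k
  rw [mem_box_swap, mem_box, mem_box]
  by_cases e1 : k = k₁
  · subst e1; rw [Equiv.swap_apply_left]; exact ⟨fun h => absurd h h2, fun h => absurd h h1⟩
  · by_cases e2 : k = k₂
    · subst e2; rw [Equiv.swap_apply_right]; exact ⟨fun h => absurd h h1, fun h => absurd h h2⟩
    · rw [Equiv.swap_apply_of_ne_of_ne e1 e2]

lemma box_swap_same {k₁ k₂ : K} {p : K → Fin 3} {j : Fin 3} (h : p k₁ = j ↔ p k₂ = j) :
    box (p ∘ Equiv.swap k₁ k₂) j = box p j := by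
  ext k
  rw [mem_box_swap, mem_box, mem_box]
  by_cases e1 : k = k₁
  · subst e1; rw [Equiv.swap_apply_left]; exact h.symm
  · by_cases e2 : k = k₂
    · subst e2; rw [Equiv.swap_apply_right]; exact h
    · rw [Equiv.swap_apply_of_ne_of_ne e1 e2]

lemma stage1_core {h : Fin 3 → (K → Fin 3) → ℝ} {c : ℝ} (hCF : CF ε ρ h) (hSL : SL ε ρ h c)
    {j : Fin 3} {p : K → Fin 3} (hp : p ∈ states ε ρ) {k₁ k₂ : K} (hk : ε k₁ = ε k₂)
    (h1 : p k₁ = j) (h2 : p k₂ ≠ j) :
    |Top ε ρ h j p - Top ε ρ h j (p ∘ Equiv.swap k₁ k₂)| ≤ c := by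
  unfold Top
  rw [← sum_sub_distrib]
  have e1 : ∀ i ∈ univ.erase j, condE ε ρ j (h i) p - condE ε ρ j (h i) (p ∘ Equiv.swap k₁ k₂)
      = condE ε ρ j (fun x => h i x - h i (x ∘ Equiv.swap k₁ k₂)) p := by
    intro i _
    rw [condE_swap hk, condE_sub]
  rw [sum_congr rfl e1, ← condE_sum]
  refine abs_condE_le hp fun x hx => ?_
  rw [mem_cls] at hx
  have hx1 : x k₁ = j := by
    have : k₁ ∈ box x j := by rw [hx.2, mem_box]; exact h1
    exact mem_box.1 this
  have hx2 : x k₂ ≠ j := by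
    intro hh
    have : k₂ ∈ box p j := by rw [← hx.2, mem_box]; exact hh
    exact h2 (mem_box.1 this)
  rw [sum_eq_single (x k₂)]
  · exact hSL (x k₂) x hx.1 k₁ k₂ hk
  · intro i hi hne
    have hij : i ≠ j := (mem_erase.1 hi).1
    have hb : box (x ∘ Equiv.swap k₁ k₂) i = box x i :=
      box_swap_of_ne (by rw [hx1]; exact fun e => hij e.symm) (fun e => hne e.symm)
    rw [hCF i x hx.1 _ (swap_mem_states hk hx.1) hb.symm, sub_self]
  · intro hni
    exact absurd (mem_erase.2 ⟨hx2, mem_univ _⟩) hni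

/-- **Stage 1**: the Gram operator does not increase the swap-Lipschitz constant. -/
lemma stage1 {h : Fin 3 → (K → Fin 3) → ℝ} {c : ℝ} (hCF : CF ε ρ h) (hSL : SL ε ρ h c) :
    SL ε ρ (Top ε ρ h) c := by
  intro j p hp k₁ k₂ hk
  have hc : 0 ≤ c := by
    have := hSL j p hp k₁ k₁ rfl
    exact le_trans (abs_nonneg _) this
  by_cases h1 : p k₁ = j
  · by_cases h2 : p k₂ = j
    · have hb : box (p ∘ Equiv.swap k₁ k₂) j = box p j := box_swap_same ⟨fun _ => h2, fun _ => h1⟩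
      have : Top ε ρ h j (p ∘ Equiv.swap k₁ k₂) = Top ε ρ h j p := by
        unfold Top
        exact sum_congr rfl fun i _ => condE_eq_of_box_eq _ hb
      rw [this, sub_self, abs_zero]; exact hc
    · exact stage1_core hCF hSL hp hk h1 h2
  · by_cases h2 : p k₂ = j
    · have := stage1_core hCF hSL hp hk.symm h2 h1
      rwa [Equiv.swap_comm] at this
    · have hb : box (p ∘ Equiv.swap k₁ k₂) j = box p j :=
        box_swap_same ⟨fun e => absurd e h1, fun e => absurd e h2⟩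
      have : Top ε ρ h j (p ∘ Equiv.swap k₁ k₂) = Top ε ρ h j p := by
        unfold Top
        exact sum_congr rfl fun i _ => condE_eq_of_box_eq _ hb
      rw [this, sub_self, abs_zero]; exact hc

/-! ### shrinking constants -/

lemma shrink_pow {P : ℝ → Prop} {κ : ℝ} (hstep : ∀ c, P c → P (c / κ)) {c₀ : ℝ} (h0 : P c₀) :
    ∀ m : ℕ, P (c₀ / κ ^ m) := by
  intro m
  induction m with
  | zero => simpa using h0
  | succ m ih =>
    have := hstep _ ih
    rwa [div_div, ← pow_succ] at this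

lemma le_zero_of_forall_pow {x c₀ κ : ℝ} (hκ : 1 < κ) (h : ∀ m : ℕ, x ≤ c₀ / κ ^ m) : x ≤ 0 := by
  by_contra hx
  have hx := not_le.1 hx
  obtain ⟨m, hm⟩ := pow_unbounded_of_one_lt (c₀ / x) hκ
  have hκm : 0 < κ ^ m := pow_pos (lt_trans zero_lt_one hκ) m
  have h1 := h m
  rw [le_div_iff₀ hκm] at h1
  rw [div_lt_iff₀ hx] at hm
  nlinarith

/-- a crude a-priori swap-Lipschitz constant -/
lemma SL_init (h : Fin 3 → (K → Fin 3) → ℝ) :
    SL ε ρ h (∑ i, ∑ p ∈ states ε ρ, ∑ q ∈ states ε ρ, |h i p - h i q|) := by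
  intro i p hp k₁ k₂ hk
  have hq := swap_mem_states (ρ := ρ) hk hp
  calc |h i p - h i (p ∘ Equiv.swap k₁ k₂)|
      ≤ ∑ q ∈ states ε ρ, |h i p - h i q| :=
        single_le_sum (f := fun q => |h i p - h i q|) (fun _ _ => abs_nonneg _) hq
    _ ≤ ∑ p' ∈ states ε ρ, ∑ q ∈ states ε ρ, |h i p' - h i q| :=
        single_le_sum (f := fun p' => ∑ q ∈ states ε ρ, |h i p' - h i q|)
          (fun _ _ => sum_nonneg fun _ _ => abs_nonneg _) hp
    _ ≤ _ :=
        single_le_sum (f := fun i => ∑ p' ∈ states ε ρ, ∑ q ∈ states ε ρ, |h i p' - h i q|)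
          (fun _ _ => sum_nonneg fun _ _ => sum_nonneg fun _ _ => abs_nonneg _) (mem_univ i)

/-- **Stage 1, conclusion**: an eigen-triple of the Gram operator with eigenvalue `κ > 1` is
invariant under swaps of equally charged balls. -/
lemma SL_zero {h : Fin 3 → (K → Fin 3) → ℝ} {κ : ℝ} (hκ : 1 < κ) (hCF : CF ε ρ h)
    (heig : ∀ j, ∀ p ∈ states ε ρ, κ * h j p = Top ε ρ h j p) : SL ε ρ h 0 := by
  have hκ0 : 0 < κ := lt_trans zero_lt_one hκ
  have hstep : ∀ c, SL ε ρ h c → SL ε ρ h (c / κ) := by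
    intro c hc j p hp k₁ k₂ hk
    have := stage1 hCF hc j p hp k₁ k₂ hk
    rw [← heig j p hp, ← heig j _ (swap_mem_states hk hp), ← mul_sub, abs_mul, abs_of_pos hκ0] at this
    rw [le_div_iff₀ hκ0]; linarith
  have hall := shrink_pow (P := SL ε ρ h) hstep (SL_init h)
  intro i p hp k₁ k₂ hk
  exact le_zero_of_forall_pow hκ fun m => hall m i p hp k₁ k₂ hk

end Crest.Agent.S0453T
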