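import Crest.Agent.S0453T.Defs2

/-!
Row 299 / S0453, lemma (T), 3-box system, STAGE 1.5 (helper51):
a class-function triple that is invariant under swaps of equally charged balls is a function of
the number of `+` balls in the box (`CU`).
-/

set_option autoImplicit false
set_option linter.unusedSectionVars false
open Finset

namespace Crest.Agent.S0453T

variable {K : Type} [Fintype K] [DecidableEq K] {ε : K → ℤ} {ρ : Fin 3 → ℤ}

namespace Stage15

/-- charge of a box = (number of plus balls) − (number of minus balls) -/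
lemma box_charge (hε : ∀ k, ε k = 1 ∨ ε k = -1) (p : K → Fin 3) (x : Fin 3) :
    ∑ k, (if p k = x then ε k else 0)
      = ((univ.filter fun k => p k = x ∧ ε k = 1).card : ℤ)
        - ((univ.filter fun k => p k = x ∧ ε k = -1).card : ℤ) := by
  rw [Finset.card_filter, Finset.card_filter]
  push_cast
  rw [← Finset.sum_sub_distrib]
  apply Finset.sum_congr rfl
  intro k _
  rcases hε k with h | h <;> by_cases hx : p k = x <;> simp [h, hx]

/-- in a state, the number of balls of charge `s` in box `i` is determined by `ucount` -/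
lemma sign_count_eq (hε : ∀ k, ε k = 1 ∨ ε k = -1) {p q : K → Fin 3} (hp : p ∈ states ε ρ)
    (hq : q ∈ states ε ρ) {i : Fin 3} (hu : ucount ε p i = ucount ε q i) (s : ℤ)
    (hs : s = 1 ∨ s = -1) :
    (univ.filter fun k => p k = i ∧ ε k = s).card
      = (univ.filter fun k => q k = i ∧ ε k = s).card := by
  rcases hs with rfl | rfl
  · exact hu
  · have h1 := mem_states.1 hp i
    have h2 := mem_states.1 hq i
    rw [box_charge hε] at h1 h2
    unfold ucount at hu
    have h0 : ((univ.filter fun k => p k = i ∧ ε k = 1).card : ℤ)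
        = ((univ.filter fun k => q k = i ∧ ε k = 1).card : ℤ) := by exact_mod_cast hu
    have h3 : ((univ.filter fun k => p k = i ∧ ε k = -1).card : ℤ)
        = ((univ.filter fun k => q k = i ∧ ε k = -1).card : ℤ) := by linarith
    exact_mod_cast h3

/-- a box is the disjoint union of its plus and its minus balls -/
lemma card_box (hε : ∀ k, ε k = 1 ∨ ε k = -1) (x : K → Fin 3) (i : Fin 3) :
    (box x i).card = (univ.filter fun k => x k = i ∧ ε k = 1).card
      + (univ.filter fun k => x k = i ∧ ε k = -1).card := by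
  have hd : Disjoint (univ.filter fun k => x k = i ∧ ε k = 1)
      (univ.filter fun k => x k = i ∧ ε k = -1) := by
    rw [Finset.disjoint_left]
    intro k hk1 hk2
    have a := (mem_filter.1 hk1).2.2
    have b := (mem_filter.1 hk2).2.2
    rw [a] at b
    norm_num at b
  rw [← card_union_eq_card_add_card.2 hd]
  congr 1
  ext k
  simp only [box, mem_filter, mem_univ, true_and, mem_union]
  constructor
  · intro hk
    rcases hε k with h1 | h1
    · exact Or.inl ⟨hk, h1⟩
    · exact Or.inr ⟨hk, h1⟩
  · rintro (hk | hk) <;> exact hk.1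

lemma aux (hε : ∀ k, ε k = 1 ∨ ε k = -1) {h : Fin 3 → (K → Fin 3) → ℝ}
    (hCF : CF ε ρ h) (hSL : SL ε ρ h 0) (i : Fin 3) (q : K → Fin 3) (hq : q ∈ states ε ρ) :
    ∀ n : ℕ, ∀ p ∈ states ε ρ, ucount ε p i = ucount ε q i →
      (box p i \ box q i).card = n → h i p = h i q := by
  intro n
  induction n with
  | zero =>
    intro p hp hu hc
    apply hCF i p hp q hq
    have hsub : box p i ⊆ box q i := by
      rw [← Finset.sdiff_eq_empty_iff_subset]; exact card_eq_zero.1 hc
    apply Finset.eq_of_subset_of_card_le hsub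
    have e1 := card_box hε p i
    have e2 := card_box hε q i
    have e3 := sign_count_eq hε hp hq hu 1 (Or.inl rfl)
    have e4 := sign_count_eq hε hp hq hu (-1) (Or.inr rfl)
    omega
  | succ n ih =>
    intro p hp hu hc
    have hne : (box p i \ box q i).Nonempty := by
      rw [← card_pos, hc]; exact Nat.succ_pos n
    obtain ⟨k₁, hk₁⟩ := hne
    have hk₁' := hk₁
    rw [mem_sdiff, mem_box, mem_box] at hk₁
    obtain ⟨hk₁p, hk₁q⟩ := hk₁
    -- a ball of the same charge in `box q i \ box p i`
    have hex : ∃ k₂, q k₂ = i ∧ p k₂ ≠ i ∧ ε k₂ = ε k₁ := by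
      by_contra hno
      push Not at hno
      have hmem : k₁ ∈ (univ.filter fun k => p k = i ∧ ε k = ε k₁) :=
        mem_filter.2 ⟨mem_univ _, hk₁p, rfl⟩
      have hsub : (univ.filter fun k => q k = i ∧ ε k = ε k₁)
          ⊆ (univ.filter fun k => p k = i ∧ ε k = ε k₁).erase k₁ := by
        intro k hk
        rw [mem_filter] at hk
        rw [mem_erase, mem_filter]
        refine ⟨?_, mem_univ _, ?_, hk.2.2⟩
        · intro hkk
          rw [hkk] at hk
          exact hk₁q hk.2.1
        · by_contra hpk
          exact hno k hk.2.1 hpk hk.2.2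
      have hcard := card_le_card hsub
      rw [card_erase_of_mem hmem] at hcard
      have e3 := sign_count_eq hε hp hq hu (ε k₁) (hε k₁)
      have hpos : 0 < (univ.filter fun k => p k = i ∧ ε k = ε k₁).card :=
        card_pos.2 ⟨k₁, hmem⟩
      omega
    obtain ⟨k₂, hk₂q, hk₂p, hk₂ε⟩ := hex
    have hkk : ε k₁ = ε k₂ := hk₂ε.symm
    have hp' : p ∘ Equiv.swap k₁ k₂ ∈ states ε ρ := swap_mem_states hkk hp
    have hsl := hSL i p hp k₁ k₂ hkk
    have heq : h i p = h i (p ∘ Equiv.swap k₁ k₂) := by
      have h0 : |h i p - h i (p ∘ Equiv.swap k₁ k₂)| = 0 := le_antisymm hsl (abs_nonneg _)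
      exact sub_eq_zero.1 (abs_eq_zero.1 h0)
    rw [heq]
    apply ih _ hp'
    · rw [ucount_swap hkk]; exact hu
    · have hset : box (p ∘ Equiv.swap k₁ k₂) i \ box q i = (box p i \ box q i).erase k₁ := by
        ext k
        rw [mem_sdiff, mem_box_swap, mem_erase, mem_sdiff, mem_box, mem_box, mem_box]
        by_cases e1 : k = k₁
        · rw [e1, Equiv.swap_apply_left]
          constructor
          · rintro ⟨a, _⟩; exact absurd a hk₂p
          · rintro ⟨a, _⟩; exact absurd rfl a
        · by_cases e2 : k = k₂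
          · rw [e2, Equiv.swap_apply_right]
            constructor
            · rintro ⟨_, b⟩; exact absurd hk₂q b
            · rintro ⟨_, _, b⟩; exact absurd hk₂q b
          · rw [Equiv.swap_apply_of_ne_of_ne e1 e2]
            constructor
            · rintro ⟨a, b⟩; exact ⟨e1, a, b⟩
            · rintro ⟨_, a, b⟩; exact ⟨a, b⟩
      rw [hset, card_erase_of_mem hk₁', hc]
      omega

end Stage15

/-- STAGE 1.5: swap-invariant class functions are functions of the `+`-count of their box. -/
theorem CU_of_SL_zero (hε : ∀ k, ε k = 1 ∨ ε k = -1) {h : Fin 3 → (K → Fin 3) → ℝ}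
    (hCF : CF ε ρ h) (hSL : SL ε ρ h 0) : CU ε ρ h := by
  intro i p hp q hq hu
  exact Stage15.aux hε hCF hSL i q hq _ p hp hu rfl

end Crest.Agent.S0453T
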