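import Crest.Agent.S0453T.Defs
import Crest.Agent.S0453.ThreeBoxCount

/-!
Row 299 / S0453, lemma (T), 3-box system, STAGE 2 (helper64): `count_stage` of
`Crest/Agent/S0453/ThreeBoxCount.lean` restated with the common definitions of `Defs.lean`
(`states`, `ucount`).

If count functions `ψ i` satisfy the level-set form of the eigen-equation
`c · ψ_i(u) · #{ucount i = u} = ∑_{ucount i = u} ∑_{j ≠ i} ψ_j(ucount j)` with `|c| > 1`,
then each `ψ i` is constant on the feasible counts.
-/

set_option autoImplicit false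
open Finset

namespace Crest.Agent.S0453T

variable {K : Type} [Fintype K] [DecidableEq K]

lemma states_eq_count (ε : K → ℤ) (ρ : Fin 3 → ℤ) :
    states ε ρ = Crest.Agent.S0453R.ThreeBoxCount.states ε ρ := rfl

lemma ucount_eq_cnt (ε : K → ℤ) (p : K → Fin 3) (i : Fin 3) :
    ucount ε p i = Crest.Agent.S0453R.ThreeBoxCount.cnt ε i p := by
  unfold ucount Crest.Agent.S0453R.ThreeBoxCount.cnt
  congr 1
  ext k
  simp only [mem_filter, mem_univ, true_and]
  exact and_comm

/-- **Stage 2 (count chain)** in the vocabulary of `Defs.lean`. -/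
theorem count_stage (ε : K → ℤ) (hε : ∀ k, ε k = 1 ∨ ε k = -1) (ρ : Fin 3 → ℤ)
    (ψ : Fin 3 → ℕ → ℝ) (c : ℝ) (hc : 1 < |c|)
    (heq : ∀ i u, c * ψ i u * (((states ε ρ).filter fun p => ucount ε p i = u).card : ℝ)
        = ∑ p ∈ (states ε ρ).filter (fun p => ucount ε p i = u),
            ∑ j ∈ univ.erase i, ψ j (ucount ε p j)) :
    ∀ i, ∀ p ∈ states ε ρ, ∀ q ∈ states ε ρ, ψ i (ucount ε p i) = ψ i (ucount ε q i) := by
  have h := Crest.Agent.S0453R.ThreeBoxCount.count_stage ε hε ρ ψ c hc (by
    intro i u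
    have := heq i u
    simp only [ucount_eq_cnt, states_eq_count] at this
    exact this)
  intro i p hp q hq
  rw [ucount_eq_cnt, ucount_eq_cnt]
  exact h i p hp q hq

end Crest.Agent.S0453T
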